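import Vale.Agent.P207.Q.H413.Rigid
import Vale.Agent.P207.Q.H545.WeakX

/-!
# P207: the calculus of six measure preserving flows on a compact space

`Flows m`: six continuous measure preserving flows on `P`.  `SClass F`: a subalgebra `S` of
`C(P, ℝ)` of functions which are differentiable along the flows with derivatives in `S`, stable
under the flow of `X`, dense.  `SClass.cal`: with the brackets this is a `Cal (intL m)`, and the
product rule `wpx` along `X` holds.
-/

open MeasureTheory Filter Topology Set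

noncomputable section

namespace Vale.Agent.P207.Q.H413

variable {P : Type*} [TopologicalSpace P] [MeasurableSpace P]

/-- Six continuous measure preserving flows. -/
structure Flows (m : Measure P) where
  Φ : Idx → ℝ → P → P
  cont : ∀ k, Continuous fun q : ℝ × P => Φ k q.1 q.2
  zero : ∀ k x, Φ k 0 x = x
  add : ∀ k s t x, Φ k (s + t) x = Φ k s (Φ k t x)
  mp : ∀ k t, MeasurePreserving (Φ k t) m m

variable {m : Measure P}

namespace Flows

variable (F : Flows m)

theorem cont_t (k : Idx) (t : ℝ) : Continuous (F.Φ k t) :=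
  (F.cont k).comp (continuous_const.prodMk continuous_id)

/-- the time `t` map -/
def map (k : Idx) (t : ℝ) : C(P, P) := ⟨F.Φ k t, F.cont_t k t⟩

theorem mflow [BorelSpace P] [SecondCountableTopology P] (k : Idx) : MFlow m (F.Φ k) where
  meas := (F.cont k).measurable
  zero := F.zero k
  add := F.add k
  mp := F.mp k

/-- derivative at time `0` gives the derivative at all times -/
theorem hasDerivAt {k : Idx} {f g : P → ℝ}
    (h : ∀ x, HasDerivAt (fun t => f (F.Φ k t x)) (g x) 0) (x : P) (s : ℝ) :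
    HasDerivAt (fun t => f (F.Φ k t x)) (g (F.Φ k s x)) s := by
  have h1 := h (F.Φ k s x)
  have h3 : HasDerivAt (fun t => f (F.Φ k t (F.Φ k s x))) (g (F.Φ k s x)) (s - s) := by
    simpa using h1
  have h4 := HasDerivAt.comp_sub_const s s h3
  refine h4.congr_of_eventuallyEq (Eventually.of_forall fun t => ?_)
  simp only
  rw [← F.add, sub_add_cancel]

end Flows

variable [CompactSpace P] [BorelSpace P]

theorem exists_bound (f : C(P, ℝ)) : ∃ B, ∀ x, |f x| ≤ B :=
  ⟨‖f‖, fun x => f.norm_coe_le_norm x⟩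

/-- the integral of a derivative along a flow vanishes -/
theorem Flows.integral_deriv [IsProbabilityMeasure m] [SecondCountableTopology P] (F : Flows m)
    {k : Idx} (f g : C(P, ℝ))
    (h : ∀ x, HasDerivAt (fun t => f (F.Φ k t x)) (g x) 0) : ∫ x, g x ∂m = 0 := by
  obtain ⟨B, hB⟩ := exists_bound f
  obtain ⟨B', hB'⟩ := exists_bound g
  have h1 := H545.hasDerivAt_pair (F.mflow k) (a := fun _ => 1) (K := 1) measurable_const
    (fun x => by simp) (χ := f) (χ' := g) (B := max B B') f.continuous.measurable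
    g.continuous.measurable (fun x => (hB x).trans (le_max_left _ _))
    (fun x => (hB' x).trans (le_max_right _ _)) (F.hasDerivAt h) 0
  have h2 : (fun s => ∫ x, 1 * f (F.Φ k s x) ∂m) = fun _ => ∫ x, f x ∂m := by
    funext s
    simp only [one_mul]
    exact (F.mflow k).integral_comp s f.continuous.aestronglyMeasurable
  rw [h2] at h1
  have h3 := h1.unique (hasDerivAt_const (0 : ℝ) _)
  simpa [F.zero] using h3

/-- A dense subalgebra of functions differentiable along the flows. -/
structure SClass (F : Flows m) where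
  S : Subalgebra ℝ C(P, ℝ)
  der : ∀ k, ∀ f ∈ S, ∃ g ∈ S, ∀ x, HasDerivAt (fun t => f (F.Φ k t x)) (g x) 0
  comp : ∀ t, ∀ f ∈ S, f.comp (F.map .X t) ∈ S
  dense : S.topologicalClosure = ⊤

namespace SClass

variable {F : Flows m} (C : SClass F)

/-- the derivative along the flow `k` -/
def dd (k : Idx) (f : C.S) : C.S :=
  ⟨(C.der k f f.2).choose, (C.der k f f.2).choose_spec.1⟩

theorem hasDerivAt_dd (k : Idx) (f : C.S) (x : P) :
    HasDerivAt (fun t => (f : C(P, ℝ)) (F.Φ k t x)) ((C.dd k f : C(P, ℝ)) x) 0 :=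
  (C.der k f f.2).choose_spec.2 x

theorem dd_eq {k : Idx} {f g : C.S}
    (h : ∀ x, HasDerivAt (fun t => (f : C(P, ℝ)) (F.Φ k t x)) ((g : C(P, ℝ)) x) 0) :
    C.dd k f = g := by
  apply Subtype.ext
  refine ContinuousMap.ext fun x => ?_
  exact (C.hasDerivAt_dd k f x).unique (h x)

/-- the derivation of the flow `k` -/
def der' (k : Idx) : Derivation ℝ C.S C.S :=
  Derivation.mk'
    { toFun := C.dd k
      map_add' := fun f g => C.dd_eq fun x =>
        (C.hasDerivAt_dd k f x).add (C.hasDerivAt_dd k g x)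
      map_smul' := fun r f => C.dd_eq fun x =>
        (C.hasDerivAt_dd k f x).const_mul r }
    (fun f g => C.dd_eq fun x => by
      have h := (C.hasDerivAt_dd k f x).mul (C.hasDerivAt_dd k g x)
      refine h.congr_deriv ?_
      simp only [LinearMap.coe_mk, AddHom.coe_mk, smul_eq_mul, Subalgebra.coe_add,
        Subalgebra.coe_mul, ContinuousMap.add_apply, ContinuousMap.mul_apply, F.zero]
      ring)

@[simp] theorem der'_apply (k : Idx) (f : C.S) : C.der' k f = C.dd k f := rfl

theorem approx (f : C(P, ℝ)) {ε : ℝ} (hε : 0 < ε) : ∃ g : C.S, ‖f - g‖ < ε := by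
  have h : f ∈ C.S.topologicalClosure := by rw [C.dense]; trivial
  have h2 : f ∈ closure (C.S : Set C(P, ℝ)) := h
  obtain ⟨g, hg, hd⟩ := Metric.mem_closure_iff.1 h2 ε hε
  exact ⟨⟨g, hg⟩, by rwa [dist_eq_norm] at hd⟩

variable [IsProbabilityMeasure m] [SecondCountableTopology P]

/-- The calculus of the flows, given the brackets. -/
def cal (VX : ∀ i (f : C.S), C.dd (.V i) (C.dd .X f) - C.dd .X (C.dd (.V i) f) = C.dd (.H i) f)
    (VH : ∀ i j (f : C.S), C.dd (.V i) (C.dd (.H j) f) - C.dd (.H j) (C.dd (.V i) f) =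
      if i = j then - C.dd .X f else 0)
    (VV : ∀ f : C.S, C.dd (.V 0) (C.dd (.V 1) f) - C.dd (.V 1) (C.dd (.V 0) f) = C.dd .R f) :
    Cal (intL m) where
  S := C.S
  Y := C.der'
  int_Y := fun k f => by
    rw [intL_apply]
    exact F.integral_deriv (f : C(P, ℝ)) _ (C.hasDerivAt_dd k f)
  VX := VX
  VH := VH
  VV := VV

omit [SecondCountableTopology P] [IsProbabilityMeasure m] in
theorem deriv_eq (k : Idx) (f : C.S) (x : P) :
    deriv (fun t => (f : C(P, ℝ)) (F.Φ k t x)) 0 = (C.dd k f : C(P, ℝ)) x :=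
  (C.hasDerivAt_dd k f x).deriv

/-- The product rule along `X` for weakly differentiable continuous functions. -/
theorem wpx (G G' : C(P, ℝ)) (h : ∀ f : C.S, intL m (G * (C.dd .X f : C(P, ℝ))) =
    - intL m (G' * (f : C(P, ℝ)))) : intL m (G * G') = 0 := by
  rw [intL_apply]
  obtain ⟨B, hB⟩ := exists_bound G
  obtain ⟨B', hB'⟩ := exists_bound G'
  refine H545.integral_mul_weakDeriv (F.mflow .X) (K := max B B') G.continuous.measurable
    G'.continuous.measurable (fun x => (hB x).trans (le_max_left _ _))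
    (fun x => (hB' x).trans (le_max_right _ _))
    {χ | ∃ f : C.S, χ = fun x => (f : C(P, ℝ)) x}
    (fun χ x => deriv (fun t => χ (F.Φ .X t x)) 0) ?_ ?_ ?_ ?_ ?_
  · rintro χ ⟨f, rfl⟩
    obtain ⟨B1, hB1⟩ := exists_bound (f : C(P, ℝ))
    obtain ⟨B2, hB2⟩ := exists_bound (C.dd .X f : C(P, ℝ))
    simp only [C.deriv_eq]
    exact ⟨(f : C(P, ℝ)).continuous.measurable, (C.dd .X f : C(P, ℝ)).continuous.measurable,
      max B1 B2, fun x => ⟨(hB1 x).trans (le_max_left _ _), (hB2 x).trans (le_max_right _ _)⟩⟩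
  · rintro χ ⟨f, rfl⟩ s
    refine ⟨⟨⟨_, C.comp s _ f.2⟩, rfl⟩, ?_⟩
    funext x
    simp only
    congr 1
    funext t
    rw [← F.add, ← F.add, add_comm]
  · rintro χ ⟨f, rfl⟩ x s
    simp only [C.deriv_eq]
    exact F.hasDerivAt (C.hasDerivAt_dd .X f) x s
  · intro ε hε
    obtain ⟨g, hg⟩ := C.approx G hε
    refine ⟨_, ⟨g, rfl⟩, ?_⟩
    have h1 : ∀ x, |G x - (g : C(P, ℝ)) x| ≤ ε := fun x =>
      ((G - (g : C(P, ℝ))).norm_coe_le_norm x).trans hg.le
    calc ∫ x, |G x - (g : C(P, ℝ)) x| ∂m ≤ ∫ _, ε ∂m :=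
          integral_mono (integrable_cont (G.continuous.sub (g : C(P, ℝ)).continuous).abs)
            (integrable_const _) h1
      _ = ε := by simp
  · rintro χ ⟨f, rfl⟩
    simp only [C.deriv_eq]
    have h1 := h f
    rw [intL_apply, intL_apply] at h1
    exact h1

end SClass

end Vale.Agent.P207.Q.H413
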