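import Vale.Agent.P207.Q.H892.Cod
import Vale.Agent.P207.Q.H413.FlowCal
import Mathlib.Algebra.QuadraticDiscriminant

/-!
# P207: assembly of the analytic part over an abstract calculus

`UData`: the unstable Riccati tensor `U` as a `C¹` object; `PsiData`: the weak derivatives of `ψ`.
Together with the curvature relations `Curv` they give constant curvature.
-/

open MeasureTheory Filter Topology

noncomputable section

namespace Vale.Agent.P207.Q.H413

open Vale.Agent.P207.Q.H892 (Curv cod_of_curv)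

variable {P : Type*} [TopologicalSpace P] [CompactSpace P] [MeasurableSpace P] [BorelSpace P]
  {m : Measure P} [IsFiniteMeasure m]

/-- The unstable Riccati tensor: a `C¹` solution of `X U = K - U²` with the equivariance under the
rotation of `(e₁, e₂)`. -/
structure UData (c : Cal (intL m)) (C : Curv c) where
  U : Fin 2 → Fin 2 → C(P, ℝ)
  dU : Fin 2 → Fin 2 → Idx → C(P, ℝ)
  jU : ∀ i j, Jet c (U i j) (dU i j)
  symU : U 1 0 = U 0 1
  symd : ∀ k, dU 1 0 k = dU 0 1 k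
  ric : ∀ i j, dU i j .X = C.K i j - ∑ k, U i k * U k j
  R00 : dU 0 0 .R = 2 * U 0 1
  R01 : dU 0 1 .R = U 1 1 - U 0 0
  R11 : dU 1 1 .R = - 2 * U 0 1

/-- The weak derivatives of `ψ` (`J f = ∫ ψ f`): `X ψ = t - h`, `R ψ = 0`,
`H_i ψ = - p_i - U_ij a_j` with `a_j = V_j ψ`. -/
structure PsiData {c : Cal (intL m)} {C : Curv c} (D : UData c C) (J : C(P, ℝ) →L[ℝ] ℝ)
    (h : ℝ) where
  a : Idx → C(P, ℝ)
  weak : Weak c J a
  aX : a .X = D.U 0 0 + D.U 1 1 - algebraMap ℝ C(P, ℝ) h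
  aR : a .R = 0
  aH : ∀ i, a (.H i) = - (∑ j, D.dU i j (.V j)) - ∑ j, D.U i j * a (.V j)

/-- **Assembly.** -/
theorem const_of_data [m.IsOpenPosMeasure] {c : Cal (intL m)} {C : Curv c} (D : UData c C)
    {J : C(P, ℝ) →L[ℝ] ℝ} {h : ℝ} (Q : PsiData D J h)
    (wpx : ∀ F F' : C(P, ℝ), WX c F F' → intL m (F * F') = 0)
    {ε : ℝ} (hε : 0 < ε)
    (hpos : ∀ x a b, ε * (a ^ 2 + b ^ 2) ≤ D.U 0 0 x * a ^ 2 + 2 * D.U 0 1 x * (a * b) +
      D.U 1 1 x * b ^ 2)
    {lam : ℝ} (hc : ∀ x, 0 < lam * (D.U 0 0 x + D.U 1 1 x) - 3 / 2 * lam ^ 2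
      - 6 * (((D.U 0 0 x - D.U 1 1 x) / 2) ^ 2 + (D.U 0 1 x) ^ 2)) :
    (∀ x, (C.E22 : C(P, ℝ)) x = (h / 2) ^ 2) ∧ (∀ x, (C.E11 : C(P, ℝ)) x = (h / 2) ^ 2) ∧
      (∀ x, (C.E12 : C(P, ℝ)) x = 0) ∧
      (∀ x i j, D.U i j x = if i = j then h / 2 else 0) := by
  let D' : Data c J :=
    { wpx := wpx
      U := D.U
      dU := D.dU
      K := C.K
      dK := fun k => ((c.Y k (C.E22 + C.E11) : c.S) : C(P, ℝ))
      a := Q.a
      h := h
      jU := D.jU
      jK := (Jet.of_mem (C.E22 + C.E11)).congr (by simp [Curv.K]) fun _ => rfl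
      symU := D.symU
      symd := D.symd
      ric := D.ric
      R00 := D.R00
      R01 := D.R01
      R11 := D.R11
      cod := cod_of_curv C D.jU D.symU D.symd D.ric D.R00 D.R01 D.R11 wpx hε hpos
      weak := Q.weak
      aX := Q.aX
      aR := Q.aR
      aH := Q.aH }
  obtain ⟨h1, h2⟩ := D'.const_curv hc
  refine ⟨fun x => ?_, fun x => ?_, fun x => ?_, h1⟩
  · have := h2 x 0 0
    simpa [D', Curv.K] using this
  · have := h2 x 1 1
    simpa [D', Curv.K] using this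
  · have := h2 x 0 1
    simpa [D', Curv.K] using this

/-- the quadratic form bounds `lam ≤ U ≤ Lam`, `Lam < 2 lam` give the inequality of the key
identity -/
theorem bunch_pos {u w z lam Lam : ℝ} (hl : 0 < lam) (hL : Lam < 2 * lam)
    (h1 : ∀ a b : ℝ, lam * (a ^ 2 + b ^ 2) ≤ u * a ^ 2 + 2 * z * (a * b) + w * b ^ 2)
    (h2 : ∀ a b : ℝ, u * a ^ 2 + 2 * z * (a * b) + w * b ^ 2 ≤ Lam * (a ^ 2 + b ^ 2)) :
    0 < lam * (u + w) - 3 / 2 * lam ^ 2 - 6 * (((u - w) / 2) ^ 2 + z ^ 2) := by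
  have d1 : discrim (u - lam) (2 * z) (w - lam) ≤ 0 :=
    discrim_le_zero fun x => by nlinarith [h1 x 1]
  have d2 : discrim (Lam - u) (-2 * z) (Lam - w) ≤ 0 :=
    discrim_le_zero fun x => by nlinarith [h2 x 1]
  rw [discrim] at d1 d2
  set q := ((u - w) / 2) ^ 2 + z ^ 2 with hq
  have hq0 : 0 ≤ q := by positivity
  have e1 : q ≤ ((u + w) / 2 - lam) ^ 2 := by nlinarith
  have e2 : q ≤ (Lam - (u + w) / 2) ^ 2 := by nlinarith
  have t1 : 0 ≤ (u + w) / 2 - lam := by nlinarith [h1 1 0, h1 0 1]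
  have t2 : 0 ≤ Lam - (u + w) / 2 := by nlinarith [h2 1 0, h2 0 1]
  have r1 : Real.sqrt q ≤ (u + w) / 2 - lam := by
    rw [Real.sqrt_le_left t1]; exact e1
  have r2 : Real.sqrt q ≤ Lam - (u + w) / 2 := by
    rw [Real.sqrt_le_left t2]; exact e2
  have r0 : 0 ≤ Real.sqrt q := Real.sqrt_nonneg q
  have rq : Real.sqrt q ^ 2 = q := Real.sq_sqrt hq0
  set r := Real.sqrt q
  have k1 : lam * (2 * lam + 2 * r) ≤ lam * (u + w) :=
    mul_le_mul_of_nonneg_left (by linarith) hl.le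
  have k2 : 0 < (lam - 2 * r) * (lam + 3 * (2 * r)) :=
    mul_pos (by linarith) (by linarith)
  nlinarith

end Vale.Agent.P207.Q.H413
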