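import Vale.Agent.P207.Q.H413.Cal
import Vale.Agent.P207.Q.H545.Key
import Mathlib.Topology.ContinuousMap.Compact
import Mathlib.MeasureTheory.Integral.Bochner.Set

/-!
# P207: the identities (N), (S), (Y) give rigidity (the case `A = C(P, ℝ)`)
-/

open MeasureTheory Filter Topology ComplexConjugate

noncomputable section

namespace Vale.Agent.P207.Q.H413

variable {P : Type*} [TopologicalSpace P] [CompactSpace P] [MeasurableSpace P] [BorelSpace P]

/-- a continuous function on a compact space is integrable -/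
theorem integrable_cont {m : Measure P} [IsFiniteMeasure m] {f : P → ℝ} (hf : Continuous f) :
    Integrable f m :=
  hf.integrable_of_hasCompactSupport (HasCompactSupport.of_compactSpace _)

theorem integrable_mul_cont {m : Measure P} {ψ : P → ℝ} (hψ : Integrable ψ m) (f : C(P, ℝ)) :
    Integrable (fun x => ψ x * f x) m :=
  hψ.mul_bdd (c := ‖f‖) f.continuous.aestronglyMeasurable
    (Eventually.of_forall fun x => f.norm_coe_le_norm x)

/-- `f ↦ ∫ ψ f` -/
def psiL (m : Measure P) (ψ : P → ℝ) (hψ : Integrable ψ m) : C(P, ℝ) →L[ℝ] ℝ :=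
  LinearMap.mkContinuous
    { toFun := fun f => ∫ x, ψ x * f x ∂m
      map_add' := fun f g => by
        rw [← integral_add (integrable_mul_cont hψ f) (integrable_mul_cont hψ g)]
        congr 1; funext x; simp only [ContinuousMap.add_apply]; ring
      map_smul' := fun r f => by
        simp only [RingHom.id_apply, smul_eq_mul]
        rw [← integral_const_mul]
        congr 1; funext x; simp only [ContinuousMap.smul_apply, smul_eq_mul]; ring }
    (∫ x, |ψ x| ∂m) (fun f => by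
      simp only [LinearMap.coe_mk, AddHom.coe_mk]
      calc ‖∫ x, ψ x * f x ∂m‖ ≤ ∫ x, ‖ψ x * f x‖ ∂m := norm_integral_le_integral_norm _
        _ ≤ ∫ x, |ψ x| * ‖f‖ ∂m := by
            refine integral_mono (integrable_mul_cont hψ f).norm (hψ.norm.mul_const _) fun x => ?_
            simp only [norm_mul, Real.norm_eq_abs]
            exact mul_le_mul_of_nonneg_left (f.norm_coe_le_norm x) (abs_nonneg _)
        _ = _ := by rw [integral_mul_const])

@[simp] theorem psiL_apply {m : Measure P} {ψ : P → ℝ} {hψ : Integrable ψ m} (f : C(P, ℝ)) :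
    psiL m ψ hψ f = ∫ x, ψ x * f x ∂m := rfl

/-- the integral as a continuous linear functional on `C(P, ℝ)` -/
def intL (m : Measure P) [IsFiniteMeasure m] : C(P, ℝ) →L[ℝ] ℝ :=
  psiL m (fun _ => 1) (integrable_const 1)

@[simp] theorem intL_apply {m : Measure P} [IsFiniteMeasure m] (f : C(P, ℝ)) :
    intL m f = ∫ x, f x ∂m := by
  simp [intL]

variable {m : Measure P} [IsFiniteMeasure m] {c : Cal (intL m)} {J : C(P, ℝ) →L[ℝ] ℝ}

namespace Data

variable (D : Data c J)

/-- `a = a₀ + i a₁` -/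
def ca (x : P) : ℂ := ⟨D.av 0 x, D.av 1 x⟩
/-- `b = B₀₀ + i B₀₁` -/
def cb (x : P) : ℂ := ⟨(D.U 0 0 x - D.U 1 1 x) / 2, D.U 0 1 x⟩
/-- `v = v₀ + i v₁` -/
def cv (x : P) : ℂ := ⟨D.v 0 x, D.v 1 x⟩
/-- `β₁ = (V₀ - i V₁) b` -/
def cβ1 (x : P) : ℂ :=
  ⟨(D.dU 0 0 (.V 0) x - D.dU 1 1 (.V 0) x) / 2 + D.dU 0 1 (.V 1) x,
    D.dU 0 1 (.V 0) x - (D.dU 0 0 (.V 1) x - D.dU 1 1 (.V 1) x) / 2⟩
/-- `β₃ = (V₀ + i V₁) b` -/
def cβ3 (x : P) : ℂ :=
  ⟨(D.dU 0 0 (.V 0) x - D.dU 1 1 (.V 0) x) / 2 - D.dU 0 1 (.V 1) x,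
    D.dU 0 1 (.V 0) x + (D.dU 0 0 (.V 1) x - D.dU 1 1 (.V 1) x) / 2⟩

omit [CompactSpace P] [MeasurableSpace P] [BorelSpace P] in
theorem cont_mk {f g : P → ℝ} (hf : Continuous f) (hg : Continuous g) :
    Continuous (fun x => (⟨f x, g x⟩ : ℂ)) := by
  have : (fun x => (⟨f x, g x⟩ : ℂ)) = fun x => (f x : ℂ) + (g x : ℂ) * Complex.I := by
    funext x; apply Complex.ext <;> simp
  rw [this]
  fun_prop

omit [CompactSpace P] [MeasurableSpace P] [BorelSpace P] in
theorem two_apply (x : P) : (2 : C(P, ℝ)) x = 2 := rfl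

theorem cont_a : Continuous D.ca := cont_mk (D.av 0).continuous (D.av 1).continuous
theorem cont_b : Continuous D.cb := by
  apply cont_mk
  · exact ((D.U 0 0).continuous.sub (D.U 1 1).continuous).div_const 2
  · exact (D.U 0 1).continuous
theorem cont_v : Continuous D.cv := cont_mk (D.v 0).continuous (D.v 1).continuous
theorem cont_β1 : Continuous D.cβ1 := by
  apply cont_mk
  · exact ((((D.dU 0 0 _).continuous.sub (D.dU 1 1 _).continuous).div_const 2).add
      (D.dU 0 1 _).continuous)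
  · exact ((D.dU 0 1 _).continuous.sub
      (((D.dU 0 0 _).continuous.sub (D.dU 1 1 _).continuous).div_const 2))
theorem cont_β3 : Continuous D.cβ3 := by
  apply cont_mk
  · exact ((((D.dU 0 0 _).continuous.sub (D.dU 1 1 _).continuous).div_const 2).sub
      (D.dU 0 1 _).continuous)
  · exact ((D.dU 0 1 _).continuous.add
      (((D.dU 0 0 _).continuous.sub (D.dU 1 1 _).continuous).div_const 2))

/-- (N) in the complex form -/
theorem cN : ∫ x, H545.fN (D.ca x) (D.cb x) (D.cv x) (D.cβ1 x) (D.cβ3 x) ∂m = 0 := by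
  have h := D.idN
  rw [intL_apply] at h
  rw [← h]
  congr 1
  funext x
  simp only [H545.fN, H545.nsq, ca, cb, cv, cβ1, cβ3, v, p, av, dt, dU2, Fin.sum_univ_two,
    ContinuousMap.add_apply, ContinuousMap.sub_apply, ContinuousMap.mul_apply,
    two_apply, D.symd,
    Complex.add_re, Complex.add_im, Complex.mul_re, Complex.mul_im, Complex.conj_re,
    Complex.conj_im, Complex.div_ofNat_re, Complex.div_ofNat_im]
  ring

/-- (S) in the complex form -/
theorem cS : ∫ x, H545.fS (D.cb x) (D.cβ1 x) (D.cβ3 x) ∂m = 0 := by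
  have h := D.idS
  rw [intL_apply] at h
  rw [← neg_eq_zero, ← h, ← integral_neg]
  congr 1
  funext x
  simp only [H545.fS, H545.nsq, cb, cβ1, cβ3,
    ContinuousMap.add_apply, ContinuousMap.sub_apply, ContinuousMap.mul_apply,
    two_apply]
  ring

/-- (Y) in the complex form -/
theorem cY (lam : ℝ) : ∫ x, H545.fY lam 0 (D.U 0 0 x + D.U 1 1 x) (D.ca x) (D.cb x) (D.cv x)
    (D.cβ1 x) ∂m = 0 := by
  have h := D.idY
  rw [intL_apply] at h
  refine Eq.trans ?_ (show 2 * lam * (0 : ℝ) = 0 by ring)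
  rw [← h, ← integral_const_mul]
  congr 1
  funext x
  rw [h]
  simp only [H545.fY, H545.nsq, ca, cb, cv, cβ1, v, p, av, dt, Fin.sum_univ_two,
    ContinuousMap.add_apply, ContinuousMap.mul_apply,
    D.symd, Complex.mul_re, Complex.mul_im, Complex.conj_re,
    Complex.conj_im, pow_two (conj _)]
  ring

/-- **Rigidity.** -/
theorem rigid [m.IsOpenPosMeasure] {lam : ℝ}
    (hc : ∀ x, 0 < lam * (D.U 0 0 x + D.U 1 1 x) - 3 / 2 * lam ^ 2
      - 6 * (((D.U 0 0 x - D.U 1 1 x) / 2) ^ 2 + (D.U 0 1 x) ^ 2)) :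
    D.U 0 0 = D.U 1 1 ∧ D.U 0 1 = 0 ∧ (∀ i, D.a (.V i) = 0) ∧
      (∀ i j k, D.dU i j (.V k) = 0) := by
  have hk := H545.key (m := m) (lam := lam) D.cont_a D.cont_b D.cont_v D.cont_β1 D.cont_β3
    (t := fun x => D.U 0 0 x + D.U 1 1 x)
    ((D.U 0 0).continuous.add (D.U 1 1).continuous) (fun x => by
      have := hc x
      have e : ‖D.cb x‖ ^ 2 = ((D.U 0 0 x - D.U 1 1 x) / 2) ^ 2 + (D.U 0 1 x) ^ 2 := by
        rw [H545.nsq]; simp only [cb]; ring
      rw [e]; exact this) D.cN D.cS (D.cY lam)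
  obtain ⟨h1, h2, h3, h4, h5⟩ := hk
  have a0 : ∀ x, D.av 0 x = 0 := fun x => congrArg Complex.re (congrFun h1 x)
  have a1 : ∀ x, D.av 1 x = 0 := fun x => congrArg Complex.im (congrFun h1 x)
  have b0 : ∀ x, (D.U 0 0 x - D.U 1 1 x) / 2 = 0 := fun x => congrArg Complex.re (congrFun h2 x)
  have b1 : ∀ x, D.U 0 1 x = 0 := fun x => congrArg Complex.im (congrFun h2 x)
  have v0 : ∀ x, D.dU 0 0 (.V 0) x + D.dU 1 1 (.V 0) x = 0 := fun x =>
    congrArg Complex.re (congrFun h3 x)
  have v1 : ∀ x, D.dU 0 0 (.V 1) x + D.dU 1 1 (.V 1) x = 0 := fun x =>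
    congrArg Complex.im (congrFun h3 x)
  have r1 : ∀ x, (D.dU 0 0 (.V 0) x - D.dU 1 1 (.V 0) x) / 2 + D.dU 0 1 (.V 1) x = 0 := fun x =>
    congrArg Complex.re (congrFun h4 x)
  have i1 : ∀ x, D.dU 0 1 (.V 0) x - (D.dU 0 0 (.V 1) x - D.dU 1 1 (.V 1) x) / 2 = 0 := fun x =>
    congrArg Complex.im (congrFun h4 x)
  have r3 : ∀ x, (D.dU 0 0 (.V 0) x - D.dU 1 1 (.V 0) x) / 2 - D.dU 0 1 (.V 1) x = 0 := fun x =>
    congrArg Complex.re (congrFun h5 x)
  have i3 : ∀ x, D.dU 0 1 (.V 0) x + (D.dU 0 0 (.V 1) x - D.dU 1 1 (.V 1) x) / 2 = 0 := fun x =>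
    congrArg Complex.im (congrFun h5 x)
  refine ⟨ContinuousMap.ext fun x => ?_, ContinuousMap.ext fun x => b1 x, fun i => ?_,
    fun i j k => ?_⟩
  · linarith [b0 x]
  · fin_cases i
    · exact ContinuousMap.ext fun x => a0 x
    · exact ContinuousMap.ext fun x => a1 x
  · refine ContinuousMap.ext fun x => ?_
    have := v0 x; have := v1 x; have := r1 x; have := i1 x; have := r3 x; have := i3 x
    have e := D.symd
    fin_cases i <;> fin_cases j <;> fin_cases k <;>
      simp only [Fin.zero_eta, Fin.mk_one, e, ContinuousMap.zero_apply] <;>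
      linarith

/-- an element of the closure of `S` which is orthogonal to `S` vanishes -/
theorem eq_zero_of_orth [m.IsOpenPosMeasure] (c : Cal (intL m)) {f : C(P, ℝ)} {u : ℕ → c.S}
    (hu : Tendsto (fun n => (u n : C(P, ℝ))) atTop (𝓝 f))
    (h : ∀ s : c.S, intL m (f * s) = 0) : f = 0 := by
  have h1 : Tendsto (fun n => intL m (f * (u n : C(P, ℝ)))) atTop (𝓝 (intL m (f * f))) :=
    ((intL m).continuous.tendsto _).comp (hu.const_mul f)
  have h2 : intL m (f * f) = 0 :=
    tendsto_nhds_unique h1 (by simpa only [h] using tendsto_const_nhds)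
  rw [intL_apply] at h2
  have h3 : (fun x => (f * f) x) = 0 := by
    have hc : Continuous fun x => (f * f) x := (f * f).continuous
    have h4 := (integral_eq_zero_iff_of_nonneg (μ := m) (fun x => by
      simp only [ContinuousMap.mul_apply, Pi.zero_apply]; exact mul_self_nonneg _)
      (integrable_cont hc)).1 h2
    exact Continuous.ae_eq_iff_eq m hc continuous_const |>.1 h4
  refine ContinuousMap.ext fun x => ?_
  have := congrFun h3 x
  simpa using this

/-- the derivatives of a `C¹` function which is constant vanish -/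
theorem jet_const [m.IsOpenPosMeasure] {c : Cal (intL m)} {r : ℝ} {f : C(P, ℝ)}
    {d : Idx → C(P, ℝ)} (hf : Jet c f d) (hr : f = algebraMap ℝ C(P, ℝ) r) (k : Idx) :
    d k = 0 := by
  obtain ⟨u, hu, hu'⟩ := id hf
  refine eq_zero_of_orth c (hu' k) fun s => ?_
  have h1 := hf.int_mul (Jet.of_mem s) k
  rw [hr, ← Algebra.smul_def, map_smul, c.int_Y, smul_zero] at h1
  rw [mul_comm]
  linarith

/-- **Constant curvature.** Under the pinching inequality, `U = (h/2) Id` and
`K = (h/2)² Id` at every frame. -/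
theorem const_curv [m.IsOpenPosMeasure] {lam : ℝ}
    (hc : ∀ x, 0 < lam * (D.U 0 0 x + D.U 1 1 x) - 3 / 2 * lam ^ 2
      - 6 * (((D.U 0 0 x - D.U 1 1 x) / 2) ^ 2 + (D.U 0 1 x) ^ 2)) :
    (∀ x i j, D.U i j x = if i = j then D.h / 2 else 0) ∧
      (∀ x i j, D.K i j x = if i = j then (D.h / 2) ^ 2 else 0) := by
  obtain ⟨h1, h2, h3, h4⟩ := D.rigid hc
  have ht : D.t - algebraMap ℝ C(P, ℝ) D.h = 0 := by
    obtain ⟨u, hu, -⟩ := D.jt
    refine eq_zero_of_orth c (u := fun n => u n - algebraMap ℝ c.S D.h) ?_ (D.int_th h3 h4)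
    have := hu.sub_const (algebraMap ℝ C(P, ℝ) D.h)
    simpa using this
  have hx : ∀ x, D.U 0 0 x + D.U 1 1 x = D.h := fun x => by
    have := congrArg (fun f : C(P, ℝ) => f x) ht
    simp only [t, ContinuousMap.sub_apply, ContinuousMap.add_apply, ContinuousMap.zero_apply]
      at this
    have e : (algebraMap ℝ C(P, ℝ) D.h) x = D.h := rfl
    rw [e] at this
    linarith
  have hU : ∀ x i j, D.U i j x = if i = j then D.h / 2 else 0 := by
    intro x i j
    have e1 : D.U 0 0 x = D.U 1 1 x := by rw [h1]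
    have e2 := hx x
    have e3 : D.U 0 1 x = 0 := by rw [h2]; rfl
    have e4 : D.U 1 0 x = 0 := by rw [D.symU]; exact e3
    fin_cases i <;> fin_cases j
    · simp only [Fin.zero_eta, if_true]; linarith
    · simpa using e3
    · simpa using e4
    · simp only [Fin.mk_one, if_true]; linarith
  have hd : ∀ i j, D.dU i j .X = 0 := by
    intro i j
    refine jet_const (D.jU i j) (r := if i = j then D.h / 2 else 0)
      (ContinuousMap.ext fun x => ?_) .X
    rw [hU x i j]; rfl
  refine ⟨hU, fun x i j => ?_⟩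
  have h5 := congrArg (fun f : C(P, ℝ) => f x) (D.ric i j)
  simp only [hd, ContinuousMap.zero_apply, ContinuousMap.sub_apply, Fin.sum_univ_two,
    ContinuousMap.add_apply, ContinuousMap.mul_apply, hU] at h5
  fin_cases i <;> fin_cases j <;>
    simp only [Fin.zero_eta, Fin.mk_one, Fin.isValue, if_true, zero_ne_one, one_ne_zero,
      if_false] at h5 ⊢ <;> linarith

end Data

end Vale.Agent.P207.Q.H413
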