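import Mathlib.Analysis.Normed.Operator.Mul
import Mathlib.Analysis.Normed.Module.Basic
import Mathlib.Algebra.Algebra.Subalgebra.Basic
import Mathlib.RingTheory.Derivation.Basic
import Mathlib.Analysis.RCLike.Basic
import Mathlib.Tactic.LinearCombination

/-!
# P207: first order calculus on the frame bundle of a 3-manifold, and the identities (N), (S), (Y)

`A` is the normed algebra of continuous functions, `I` the integral, `S` the subalgebra of smooth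
functions with the six derivations `X, H₁, H₂, V₁, V₂, R`; `J f = ∫ ψ f`.
-/

open Filter Topology

noncomputable section

namespace Vale.Agent.P207.Q.H413

/-- the names of the six fields -/
inductive Idx
  | X
  | H (i : Fin 2)
  | V (i : Fin 2)
  | R
  deriving DecidableEq

variable {A : Type*} [NormedCommRing A] [NormedAlgebra ℝ A]

/-- Smooth functions with the six derivations. -/
structure Cal (I : A →L[ℝ] ℝ) where
  S : Subalgebra ℝ A
  Y : Idx → Derivation ℝ S S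
  int_Y : ∀ k (f : S), I (Y k f : S) = 0
  VX : ∀ i (f : S), Y (.V i) (Y .X f) - Y .X (Y (.V i) f) = Y (.H i) f
  VH : ∀ i j (f : S), Y (.V i) (Y (.H j) f) - Y (.H j) (Y (.V i) f) =
    if i = j then - Y .X f else 0
  VV : ∀ f : S, Y (.V 0) (Y (.V 1) f) - Y (.V 1) (Y (.V 0) f) = Y .R f

variable {I : A →L[ℝ] ℝ}

/-- `f` is of class `C¹` with first derivatives `d`: limit of smooth functions with the first
derivatives. -/
def Jet (c : Cal I) (f : A) (d : Idx → A) : Prop :=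
  ∃ u : ℕ → c.S, Tendsto (fun n => (u n : A)) atTop (𝓝 f) ∧
    ∀ k, Tendsto (fun n => ((c.Y k (u n) : c.S) : A)) atTop (𝓝 (d k))

/-- `F'` is the weak `X`-derivative of `F` -/
def WX (c : Cal I) (F F' : A) : Prop := ∀ f : c.S, I (F * (c.Y .X f : c.S)) = - I (F' * f)

namespace Jet

variable {c : Cal I} {f g : A} {d e : Idx → A}

theorem of_mem (f : c.S) : Jet c (f : A) (fun k => ((c.Y k f : c.S) : A)) :=
  ⟨fun _ => f, tendsto_const_nhds, fun _ => tendsto_const_nhds⟩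

theorem add (hf : Jet c f d) (hg : Jet c g e) : Jet c (f + g) (fun k => d k + e k) := by
  obtain ⟨u, hu, hu'⟩ := hf
  obtain ⟨v, hv, hv'⟩ := hg
  refine ⟨fun n => u n + v n, ?_, fun k => ?_⟩
  · simpa using hu.add hv
  · simpa using (hu' k).add (hv' k)

theorem sub (hf : Jet c f d) (hg : Jet c g e) : Jet c (f - g) (fun k => d k - e k) := by
  obtain ⟨u, hu, hu'⟩ := hf
  obtain ⟨v, hv, hv'⟩ := hg
  refine ⟨fun n => u n - v n, ?_, fun k => ?_⟩
  · simpa using hu.sub hv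
  · simpa using (hu' k).sub (hv' k)

theorem mul (hf : Jet c f d) (hg : Jet c g e) :
    Jet c (f * g) (fun k => f * e k + g * d k) := by
  obtain ⟨u, hu, hu'⟩ := hf
  obtain ⟨v, hv, hv'⟩ := hg
  refine ⟨fun n => u n * v n, ?_, fun k => ?_⟩
  · simpa using hu.mul hv
  · simpa [Derivation.leibniz] using (hu.mul (hv' k)).add (hv.mul (hu' k))

theorem congr (hf : Jet c f d) {f' : A} {d' : Idx → A} (h : f = f') (h' : ∀ k, d k = d' k) :
    Jet c f' d' := by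
  obtain rfl := h
  obtain rfl : d = d' := funext h'
  exact hf

/-- integration of the derivative of a `C¹` function -/
theorem int_eq_zero (hf : Jet c f d) (k : Idx) : I (d k) = 0 := by
  obtain ⟨u, hu, hu'⟩ := hf
  have h1 : Tendsto (fun n => I ((c.Y k (u n) : c.S) : A)) atTop (𝓝 (I (d k))) :=
    (I.continuous.tendsto _).comp (hu' k)
  have h2 : (fun n => I ((c.Y k (u n) : c.S) : A)) = fun _ => 0 := by
    funext n; exact c.int_Y k (u n)
  rw [h2] at h1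
  exact (tendsto_nhds_unique h1 tendsto_const_nhds)

/-- `∫ f Y g = - ∫ g Y f` -/
theorem int_mul (hf : Jet c f d) (hg : Jet c g e) (k : Idx) :
    I (f * e k) = - I (g * d k) := by
  have := (hf.mul hg).int_eq_zero k
  simp only [map_add] at this
  linarith

/-- weak commutator for smooth `f` and `g`, passing to the limit -/
theorem int_comm {k l r : Idx} (hf : Jet c f d) (hg : Jet c g e)
    (hc : ∀ s : c.S, c.Y k (c.Y l s) - c.Y l (c.Y k s) = c.Y r s) :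
    I (d k * e l) - I (d l * e k) = - I (f * e r) := by
  obtain ⟨u, hu, hu'⟩ := hf
  obtain ⟨v, hv, hv'⟩ := hg
  have e1 : Tendsto (fun n => I (((c.Y k (u n) : c.S) : A) * ((c.Y l (v n) : c.S) : A))
      - I (((c.Y l (u n) : c.S) : A) * ((c.Y k (v n) : c.S) : A))) atTop
      (𝓝 (I (d k * e l) - I (d l * e k))) :=
    (((I.continuous.tendsto _).comp ((hu' k).mul (hv' l))).sub
      ((I.continuous.tendsto _).comp ((hu' l).mul (hv' k))))
  have e2 : Tendsto (fun n => - I ((u n : A) * ((c.Y r (v n) : c.S) : A))) atTop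
      (𝓝 (- I (f * e r))) :=
    ((I.continuous.tendsto _).comp (hu.mul (hv' r))).neg
  refine tendsto_nhds_unique e1 (e2.congr fun n => ?_)
  have h1 := (of_mem (c := c) (u n)).int_mul (of_mem (c.Y l (v n))) k
  have h2 := (of_mem (c := c) (u n)).int_mul (of_mem (c.Y k (v n))) l
  have h3 : ((c.Y k (c.Y l (v n)) : c.S) : A) - ((c.Y l (c.Y k (v n)) : c.S) : A)
      = ((c.Y r (v n) : c.S) : A) := by
    rw [← hc (v n)]; simp
  rw [← h3, mul_sub, map_sub, h1, h2, mul_comm ((c.Y l (v n) : c.S) : A),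
    mul_comm ((c.Y k (v n) : c.S) : A)]
  ring

end Jet

/-- The functional `J f = ∫ ψ f` has the weak derivatives `a`. -/
def Weak (c : Cal I) (J : A →L[ℝ] ℝ) (a : Idx → A) : Prop :=
  ∀ k (f : c.S), J (c.Y k f : c.S) = - I (a k * f)

namespace Weak

variable {c : Cal I} {J : A →L[ℝ] ℝ} {a : Idx → A}

theorem jet (h : Weak c J a) {f : A} {d : Idx → A} (hf : Jet c f d) (k : Idx) :
    J (d k) = - I (a k * f) := by
  obtain ⟨u, hu, hu'⟩ := hf
  have h1 : Tendsto (fun n => J ((c.Y k (u n) : c.S) : A)) atTop (𝓝 (J (d k))) :=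
    (J.continuous.tendsto _).comp (hu' k)
  have h2 : Tendsto (fun n => - I (a k * (u n : A))) atTop (𝓝 (- I (a k * f))) :=
    ((I.continuous.tendsto _).comp (hu.const_mul (a k))).neg
  exact tendsto_nhds_unique h1 (h2.congr fun n => (h k (u n)).symm)

/-- commutator: `∫ Yψ Zf - ∫ Zψ Yf = - ∫ ψ [Y,Z] f` (`= q`) for `f` of class `C¹`. -/
theorem comm (h : Weak c J a) {k l : Idx} {f : A} {d : Idx → A} (hf : Jet c f d)
    {T : c.S → c.S} {q : A →L[ℝ] ℝ} (hT : ∀ s : c.S, c.Y k (c.Y l s) - c.Y l (c.Y k s) = T s)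
    (hq : ∀ s : c.S, J (T s : c.S) = - q s) :
    I (a k * d l) - I (a l * d k) = q f := by
  obtain ⟨u, hu, hu'⟩ := hf
  have e1 : Tendsto (fun n => I (a k * ((c.Y l (u n) : c.S) : A))
      - I (a l * ((c.Y k (u n) : c.S) : A))) atTop
      (𝓝 (I (a k * d l) - I (a l * d k))) :=
    (((I.continuous.tendsto _).comp ((hu' l).const_mul (a k))).sub
      ((I.continuous.tendsto _).comp ((hu' k).const_mul (a l))))
  have e2 : Tendsto (fun n => q (u n : A)) atTop (𝓝 (q f)) := (q.continuous.tendsto _).comp hu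
  refine tendsto_nhds_unique e1 (e2.congr fun n => ?_)
  have h1 := h k (c.Y l (u n))
  have h2 := h l (c.Y k (u n))
  have h3 := hq (u n)
  rw [← hT (u n)] at h3
  have h4 : (((c.Y k (c.Y l (u n)) - c.Y l (c.Y k (u n)) : c.S)) : A) =
    ((c.Y k (c.Y l (u n)) : c.S) : A) - ((c.Y l (c.Y k (u n)) : c.S) : A) := by simp
  rw [h4, map_sub, h1, h2] at h3
  linarith

end Weak

/-- The data: `U` symmetric of class `C¹` with its first derivatives `dU`, the matrix `K`, the weak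
derivatives `a` of `ψ`. -/
structure Data (c : Cal I) (J : A →L[ℝ] ℝ) where
  /-- product rule along `X` for weakly differentiable elements -/
  wpx : ∀ F F' : A, WX c F F' → I (F * F') = 0
  U : Fin 2 → Fin 2 → A
  dU : Fin 2 → Fin 2 → Idx → A
  K : Fin 2 → Fin 2 → A
  /-- vertical derivative of `tr K` -/
  dK : Idx → A
  a : Idx → A
  h : ℝ
  jU : ∀ i j, Jet c (U i j) (dU i j)
  jK : Jet c (K 0 0 + K 1 1) dK
  symU : U 1 0 = U 0 1
  symd : ∀ k, dU 1 0 k = dU 0 1 k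
  /-- Riccati -/
  ric : ∀ i j, dU i j .X = K i j - ∑ k, U i k * U k j
  R00 : dU 0 0 .R = 2 * U 0 1
  R01 : dU 0 1 .R = U 1 1 - U 0 0
  R11 : dU 1 1 .R = - 2 * U 0 1
  /-- contracted Codazzi: `V_i tr K = - 2 (D_j U_ij - D_i t)` -/
  cod : ∀ i, dK (.V i) = - 2 * (∑ j, (dU i j (.H j) + ∑ l, U j l * dU i j (.V l))
    - ∑ j, (dU j j (.H i) + ∑ l, U i l * dU j j (.V l)))
  weak : Weak c J a
  aX : a .X = U 0 0 + U 1 1 - algebraMap ℝ A h
  aR : a .R = 0
  aH : ∀ i, a (.H i) = - (∑ j, dU i j (.V j)) - ∑ j, U i j * a (.V j)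

namespace Data

variable {c : Cal I} {J : A →L[ℝ] ℝ} (D : Data c J)

theorem hh (k : Idx) (s : c.S) : I (algebraMap ℝ A D.h * (c.Y k s : c.S)) = 0 := by
  rw [← Algebra.smul_def, map_smul, c.int_Y, smul_zero]

include D in
/-- polarised product rule along `X` -/
theorem wpx' {F F' G G' : A} (hF : WX c F F') (hG : WX c G G') : I (F' * G + F * G') = 0 := by
  have h1 := D.wpx _ _ hF
  have h2 := D.wpx _ _ hG
  have h3 := D.wpx (F + G) (F' + G') (fun f => by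
    rw [add_mul, add_mul, map_add, map_add, hF f, hG f]; ring)
  have e : (F + G) * (F' + G') = F * F' + G * G' + (F' * G + F * G') := by ring
  rw [e, map_add, map_add, h1, h2] at h3
  linarith

/-- `t = tr U` -/
def t : A := D.U 0 0 + D.U 1 1

/-- derivatives of `t` -/
def dt (k : Idx) : A := D.dU 0 0 k + D.dU 1 1 k

theorem jt : Jet c D.t D.dt := (D.jU 0 0).add (D.jU 1 1)

/-- `a_i` -/
def av (i : Fin 2) : A := D.a (.V i)

/-- `v_i = V_i t` -/
def v (i : Fin 2) : A := D.dt (.V i)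

/-- `p_i = V_j U_ij` -/
def p (i : Fin 2) : A := ∑ j, D.dU i j (.V j)

/-- the weak `X`-derivative of `a_i` is `v_i + p_i + (U a)_i` -/
theorem wx_a (i : Fin 2) : WX c (D.av i) (D.v i + D.p i + ∑ j, D.U i j * D.av j) := by
  intro f
  have h1 := D.weak (.V i) (c.Y .X f)
  have h2 := D.weak .X (c.Y (.V i) f)
  have h3 := D.weak (.H i) f
  have h4 : J ((c.Y (.V i) (c.Y .X f) : c.S) : A) - J ((c.Y .X (c.Y (.V i) f) : c.S) : A)
      = J ((c.Y (.H i) f : c.S) : A) := by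
    rw [← c.VX i f]; simp
  have h5 := D.jt.int_mul (Jet.of_mem f) (.V i)
  have h6 := D.hh (.V i) f
  rw [h1, h2, h3, D.aX] at h4
  simp only [av, v, p, D.aH] at *
  have h7 : I ((D.U 0 0 + D.U 1 1 - algebraMap ℝ A D.h) * ((c.Y (.V i) f : c.S) : A)) =
      - I (f * D.dt (.V i)) := by
    rw [sub_mul, map_sub, h6, sub_zero]; exact h5
  rw [h7] at h4
  have h8 : (D.dt (.V i) + ∑ j, D.dU i j (.V j) + ∑ j, D.U i j * D.a (.V j)) * (f : A) =
    f * D.dt (.V i) - (- (∑ j, D.dU i j (.V j)) - ∑ j, D.U i j * D.a (.V j)) * f := by ring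
  rw [h8, map_sub]
  linarith

/-- the derivative of `t` along `X` -/
theorem dtX : D.dt .X = D.K 0 0 + D.K 1 1 -
    (D.U 0 0 * D.U 0 0 + 2 * D.U 0 1 * D.U 0 1 + D.U 1 1 * D.U 1 1) := by
  simp only [dt, D.ric, Fin.sum_univ_two, D.symU]
  ring

/-- first derivatives of `|U|²` -/
def dU2 (k : Idx) : A :=
  2 * (D.U 0 0 * D.dU 0 0 k + 2 * D.U 0 1 * D.dU 0 1 k + D.U 1 1 * D.dU 1 1 k)

theorem jXt : Jet c (D.dt .X) (fun k => D.dK k - D.dU2 k) := by
  have h1 := (((D.jU 0 0).mul (D.jU 0 0)).add (((D.jU 0 1).mul (D.jU 0 1)).add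
    ((D.jU 0 1).mul (D.jU 0 1)))).add ((D.jU 1 1).mul (D.jU 1 1))
  refine (D.jK.sub h1).congr ?_ fun k => ?_
  · rw [D.dtX]; ring
  · simp only [dU2]; ring

/-- the weak `X`-derivative of `v_i = V_i t` is `V_i (tr K - |U|²) - H_i t` -/
theorem wx_v (i : Fin 2) : WX c (D.v i)
    (D.dK (.V i) - D.dU2 (.V i) - D.dt (.H i)) := by
  intro f
  have h1 := D.jt.int_comm (k := .V i) (l := .X) (r := .H i) (Jet.of_mem f) (c.VX i)
  have h2 := D.jXt.int_mul (Jet.of_mem f) (.V i)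
  have h3 := D.jt.int_mul (Jet.of_mem f) (.H i)
  simp only [v] at *
  rw [h2, h3] at h1
  have h4 : (D.dK (.V i) - D.dU2 (.V i) - D.dt (.H i)) * (f : A) =
    f * (D.dK (.V i) - D.dU2 (.V i)) - f * D.dt (.H i) := by ring
  rw [h4, map_sub]
  linarith

/-- commutator of `V_i` and `H_j` paired with `ψ` -/
theorem comm_VH {i j : Fin 2} (hij : i ≠ j) {f : A} {d : Idx → A} (hf : Jet c f d) :
    I (D.av i * d (.H j) - D.a (.H j) * d (.V i)) = 0 := by
  have := D.weak.comm hf (k := .V i) (l := .H j) (T := fun _ => 0) (q := 0)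
    (fun s => by rw [c.VH i j s, if_neg hij]) (fun s => by simp)
  rw [map_sub]
  simpa [av] using this

theorem comm_VH_self (i : Fin 2) {f : A} {d : Idx → A} (hf : Jet c f d) :
    I (D.av i * d (.H i) - D.a (.H i) * d (.V i) + D.a .X * f) = 0 := by
  have := D.weak.comm hf (k := .V i) (l := .H i) (T := fun s => - c.Y .X s)
    (q := - (I.comp (ContinuousLinearMap.mul ℝ A (D.a .X))))
    (fun s => by rw [c.VH i i s, if_pos rfl]) (fun s => by
      have h := D.weak .X s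
      have h2 : ((-(c.Y .X s) : c.S) : A) = - ((c.Y .X s : c.S) : A) := by simp
      rw [h2, map_neg, h]; simp)
  rw [map_add, map_sub]
  simp only [av, neg_apply, ContinuousLinearMap.comp_apply,
    ContinuousLinearMap.mul_apply'] at *
  linarith

theorem comm_VV {f : A} {d : Idx → A} (hf : Jet c f d) :
    I (D.av 0 * d (.V 1) - D.av 1 * d (.V 0)) = 0 := by
  have := D.weak.comm hf (k := .V 0) (l := .V 1) (T := fun s => c.Y .R s) (q := 0)
    (fun s => by rw [c.VV s]) (fun s => by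
      have h := D.weak .R s
      rw [h, D.aR]; simp)
  rw [map_sub]
  simpa [av] using this

/-- The identity (N). -/
theorem idN : I (D.v 0 * D.v 0 + D.v 1 * D.v 1 + 2 * (D.p 0 * D.p 0 + D.p 1 * D.p 1)
    - (D.av 0 * ((D.U 0 0 - D.U 1 1) * D.dU 0 0 (.V 0) + 2 * D.U 0 1 * D.dU 0 1 (.V 0)
        + 2 * D.U 0 1 * D.dU 0 0 (.V 1) + (D.U 1 1 - D.U 0 0) * D.dU 0 1 (.V 1))
      + D.av 1 * ((D.U 0 0 - D.U 1 1) * D.dU 0 1 (.V 0) + 2 * D.U 0 1 * D.dU 1 1 (.V 0)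
        + 2 * D.U 0 1 * D.dU 0 1 (.V 1) + (D.U 1 1 - D.U 0 0) * D.dU 1 1 (.V 1)))
    + (D.av 0 * ((D.U 0 0 - D.U 1 1) * D.p 0 + 2 * D.U 0 1 * D.p 1)
      + D.av 1 * (2 * D.U 0 1 * D.p 0 + (D.U 1 1 - D.U 0 0) * D.p 1))
    - (D.av 0 * D.dU2 (.V 0) + D.av 1 * D.dU2 (.V 1))
    + 2 * (D.av 0 * (D.U 0 0 * D.v 0 + D.U 0 1 * D.v 1)
      + D.av 1 * (D.U 0 1 * D.v 0 + D.U 1 1 * D.v 1))) = 0 := by
  have w0 := D.wpx' (D.wx_a 0) (D.wx_v 0)
  have w1 := D.wpx' (D.wx_a 1) (D.wx_v 1)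
  -- the jets of `2B`
  have j00 := (D.jU 0 0).sub (D.jU 1 1)
  have j11 := (D.jU 1 1).sub (D.jU 0 0)
  have j01 := (D.jU 0 1).add (D.jU 0 1)
  have c00 := D.comm_VH_self 0 j00
  have c11 := D.comm_VH_self 1 j11
  have c01 := D.comm_VH (i := 0) (j := 1) (by decide) j01
  have c10 := D.comm_VH (i := 1) (j := 0) (by decide) j01
  -- `a_i V_k (U_jk G_ij)`, `i = 0`, `k = 1`: `j = 0`: `U_01 G_00`, `j = 1`: `U_11 G_01`
  have d0 := D.comm_VV ((D.jU 0 1).mul j00)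
  have d1 := D.comm_VV ((D.jU 1 1).mul j01)
  -- `i = 1`, `k = 0`: `j = 0`: `U_00 G_10`, `j = 1`: `U_10 G_11`
  have d2 := D.comm_VV ((D.jU 0 0).mul j01)
  have d3 := D.comm_VV ((D.jU 0 1).mul j11)
  have k0 := D.cod 0
  have k1 := D.cod 1
  simp only [Fin.sum_univ_two, D.symU, D.symd] at k0 k1
  have H0 := D.aH 0
  have H1 := D.aH 1
  simp only [Fin.sum_univ_two, D.symU, D.symd] at H0 H1
  simp only [Fin.sum_univ_two, D.symU, H0, H1, k0, k1] at w0 w1 c00 c11 c01 c10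
  have key := congrArg₂ (· + ·) (congrArg₂ (· + ·) w0 w1)
    (congrArg₂ (· + ·) (congrArg₂ (· + ·) (congrArg₂ (· + ·) c00 c11)
      (congrArg₂ (· + ·) c01 c10))
      (congrArg₂ (· - ·) (congrArg₂ (· + ·) d0 d1) (congrArg₂ (· + ·) d2 d3)))
  simp only [← map_add, ← map_sub, add_zero, sub_zero] at key
  rw [← key]
  congr 1
  simp only [v, p, av, dt, dU2, Fin.sum_univ_two, D.symd]
  ring

/-- The identity (S): with `β₁ = x₀ + y₁ + i(y₀ - x₁)`, `β₃ = x₀ - y₁ + i(y₀ + x₁)`,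
`x_i = V_i B₀₀`, `y_i = V_i B₀₁` it is `∫ |β₃|² - |β₁|² + 4|b|² = 0`. -/
theorem idS : I ((D.dU 0 0 (.V 0) - D.dU 1 1 (.V 0)) * (2 * D.dU 0 1 (.V 1))
    - (D.dU 0 0 (.V 1) - D.dU 1 1 (.V 1)) * (2 * D.dU 0 1 (.V 0))
    - ((D.U 0 0 - D.U 1 1) * (D.U 0 0 - D.U 1 1) + 2 * D.U 0 1 * (2 * D.U 0 1))) = 0 := by
  have j0 := (D.jU 0 0).sub (D.jU 1 1)
  have j1 := (D.jU 0 1).add (D.jU 0 1)
  have h1 := j0.int_comm j1 (k := .V 0) (l := .V 1) (r := .R) c.VV
  have h2 := j1.int_comm j0 (k := .V 0) (l := .V 1) (r := .R) c.VV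
  simp only [D.R00, D.R01, D.R11] at h1 h2
  have e1 : I ((D.dU 0 0 (.V 0) - D.dU 1 1 (.V 0)) * (2 * D.dU 0 1 (.V 1))
      - (D.dU 0 0 (.V 1) - D.dU 1 1 (.V 1)) * (2 * D.dU 0 1 (.V 0)))
      = 2 * I ((D.U 0 0 - D.U 1 1) * (D.U 0 0 - D.U 1 1)) := by
    rw [map_sub, two_mul (D.dU 0 1 (.V 1)), two_mul (D.dU 0 1 (.V 0)), h1,
      ← map_neg, two_mul (I _), ← map_add]
    congr 1; ring
  have e2 : I ((D.dU 0 0 (.V 0) - D.dU 1 1 (.V 0)) * (2 * D.dU 0 1 (.V 1))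
      - (D.dU 0 0 (.V 1) - D.dU 1 1 (.V 1)) * (2 * D.dU 0 1 (.V 0)))
      = 2 * I (2 * D.U 0 1 * (2 * D.U 0 1)) := by
    have : (D.dU 0 0 (.V 0) - D.dU 1 1 (.V 0)) * (2 * D.dU 0 1 (.V 1))
      - (D.dU 0 0 (.V 1) - D.dU 1 1 (.V 1)) * (2 * D.dU 0 1 (.V 0))
      = - ((D.dU 0 1 (.V 0) + D.dU 0 1 (.V 0)) * (D.dU 0 0 (.V 1) - D.dU 1 1 (.V 1))
        - (D.dU 0 1 (.V 1) + D.dU 0 1 (.V 1)) * (D.dU 0 0 (.V 0) - D.dU 1 1 (.V 0))) := by ring
    rw [this, map_neg, map_sub, h2, neg_neg, two_mul (I _), ← map_add]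
    congr 1; ring
  have e3 : I ((D.dU 0 0 (.V 0) - D.dU 1 1 (.V 0)) * (2 * D.dU 0 1 (.V 1))
    - (D.dU 0 0 (.V 1) - D.dU 1 1 (.V 1)) * (2 * D.dU 0 1 (.V 0))
    - ((D.U 0 0 - D.U 1 1) * (D.U 0 0 - D.U 1 1) + 2 * D.U 0 1 * (2 * D.U 0 1)))
    = I ((D.dU 0 0 (.V 0) - D.dU 1 1 (.V 0)) * (2 * D.dU 0 1 (.V 1))
      - (D.dU 0 0 (.V 1) - D.dU 1 1 (.V 1)) * (2 * D.dU 0 1 (.V 0)))
      - I ((D.U 0 0 - D.U 1 1) * (D.U 0 0 - D.U 1 1)) - I (2 * D.U 0 1 * (2 * D.U 0 1)) := by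
    rw [map_sub, map_add]; ring
  linarith

/-- The identity (Y) (for constant `λ`): `∫ a·(v + p + U a) = 0`. -/
theorem idY : I (D.av 0 * (D.v 0 + D.p 0 + (D.U 0 0 * D.av 0 + D.U 0 1 * D.av 1))
    + D.av 1 * (D.v 1 + D.p 1 + (D.U 0 1 * D.av 0 + D.U 1 1 * D.av 1))) = 0 := by
  have w0 := D.wpx _ _ (D.wx_a 0)
  have w1 := D.wpx _ _ (D.wx_a 1)
  simp only [Fin.sum_univ_two, D.symU] at w0 w1
  rw [map_add, w0, w1, add_zero]

/-- If all `V`-derivatives of `U` and of `ψ` vanish then `∫ (t - h) f = 0` for smooth `f`. -/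
theorem int_th (ha : ∀ i, D.a (.V i) = 0) (hU : ∀ i j k, D.dU i j (.V k) = 0) (f : c.S) :
    I ((D.t - algebraMap ℝ A D.h) * f) = 0 := by
  have h1 := D.weak (.V 0) (c.Y (.H 0) f)
  have h2 := D.weak (.H 0) (c.Y (.V 0) f)
  have h3 := D.weak .X f
  have h4 := c.VH 0 0 f
  rw [if_pos rfl] at h4
  have h5 : J ((c.Y (.V 0) (c.Y (.H 0) f) : c.S) : A) - J ((c.Y (.H 0) (c.Y (.V 0) f) : c.S) : A)
      = - J ((c.Y .X f : c.S) : A) := by
    rw [← map_sub, ← map_neg]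
    congr 1
    have := congrArg (Subtype.val) h4
    simpa using this
  rw [h1, h2, h3, D.aH, D.aX] at h5
  simp only [ha, hU, Finset.sum_const_zero, mul_zero, sub_zero, neg_zero, zero_mul, map_zero,
    neg_neg] at h5
  exact h5.symm

end Data

end Vale.Agent.P207.Q.H413
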