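import Vale.Agent.P207.Q.H413.JetInv

/-!
# P207: pointwise pinching

With `l = (8/25) (t - |b|² / (c² t))`, `c = 7/34`, the inequality of the key identity holds as soon
as `|b| ≤ c t` and the trace free part of `K` is at most `c tr K`.
-/

open MeasureTheory Filter Topology

noncomputable section

namespace Vale.Agent.P207.Q.H413

open Vale.Agent.P207.Q.H892 (Curv cod_of_curv)
open Vale.Agent.P207.Q.H183 (jet_smul)

/-- the polynomial inequality -/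
theorem rel_poly {x : ℝ} (h0 : 0 ≤ x) (h1 : x ≤ 1) :
    0 < (8 / 25 : ℝ) * (1 / 2 - 2 * (7 / 34) ^ 2 * x) * (1 + x) -
      3 / 2 * (8 / 25) ^ 2 * (1 - x) ^ 2 - 6 * (7 / 34) ^ 2 * x := by
  nlinarith [mul_nonneg h0 (sub_nonneg.2 h1)]

/-- the pointwise inequality for the multiplier -/
theorem rel_ineq {t B k0 w : ℝ} (ht : 0 < t) (hB0 : 0 ≤ B) (hB : B ≤ (7 / 34) ^ 2 * t ^ 2)
    (hk : 0 ≤ k0) (hw : w ^ 2 ≤ (7 / 34) ^ 2 * k0 ^ 2 * B) :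
    0 < 8 / 25 * ((k0 - t ^ 2 / 2 - 2 * B) - (34 / 7) ^ 2 *
        (B * (-((t⁻¹) ^ 2 * (k0 - t ^ 2 / 2 - 2 * B))) + t⁻¹ * (2 * w - 2 * t * B))) +
      8 / 25 * (t - (34 / 7) ^ 2 * (B * t⁻¹)) * t -
      3 / 2 * (8 / 25 * (t - (34 / 7) ^ 2 * (B * t⁻¹))) ^ 2 - 6 * B := by
  set y : ℝ := 34 / 7 * Real.sqrt B * t⁻¹ with hy
  have hr : Real.sqrt B ^ 2 = B := Real.sq_sqrt hB0
  have hr0 : 0 ≤ Real.sqrt B := Real.sqrt_nonneg B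
  have htt : t⁻¹ * t = 1 := inv_mul_cancel₀ ht.ne'
  have hyr : Real.sqrt B = 7 / 34 * t * y := by
    rw [hy]
    field_simp
  have hy0 : 0 ≤ y := by positivity
  have hBy : B = (7 / 34) ^ 2 * t ^ 2 * y ^ 2 := by
    rw [← hr, hyr]; ring
  have hy1 : y ≤ 1 := by
    have h1 : t ^ 2 * y ^ 2 ≤ t ^ 2 * 1 := by
      have : (7 / 34 : ℝ) ^ 2 * (t ^ 2 * y ^ 2) ≤ (7 / 34) ^ 2 * (t ^ 2 * 1) := by
        rw [hBy] at hB; linarith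
      exact le_of_mul_le_mul_left this (by norm_num)
    have h2 : y ^ 2 ≤ 1 := le_of_mul_le_mul_left h1 (by positivity)
    nlinarith
  have hw1 : w ≤ (7 / 34) ^ 2 * t * k0 * y := by
    refine le_of_sq_le_sq ?_ (by positivity)
    rw [hBy] at hw
    nlinarith
  have hp := rel_poly (x := y ^ 2) (by positivity) (by nlinarith)
  have e : 8 / 25 * ((k0 - t ^ 2 / 2 - 2 * B) - (34 / 7) ^ 2 *
        (B * (-((t⁻¹) ^ 2 * (k0 - t ^ 2 / 2 - 2 * B))) + t⁻¹ * (2 * w - 2 * t * B))) +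
      8 / 25 * (t - (34 / 7) ^ 2 * (B * t⁻¹)) * t -
      3 / 2 * (8 / 25 * (t - (34 / 7) ^ 2 * (B * t⁻¹))) ^ 2 - 6 * B =
      t ^ 2 * ((8 / 25 : ℝ) * (1 / 2 - 2 * (7 / 34) ^ 2 * y ^ 2) * (1 + y ^ 2) -
      3 / 2 * (8 / 25) ^ 2 * (1 - y ^ 2) ^ 2 - 6 * (7 / 34) ^ 2 * y ^ 2) +
      8 / 25 * k0 * (1 - y) ^ 2 +
      8 / 25 * (2 * (34 / 7) ^ 2 * t⁻¹) * ((7 / 34) ^ 2 * t * k0 * y - w) := by
    rw [hBy]
    field_simp
    ring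
  rw [e]
  have h1 : 0 < t ^ 2 * ((8 / 25 : ℝ) * (1 / 2 - 2 * (7 / 34) ^ 2 * y ^ 2) * (1 + y ^ 2) -
      3 / 2 * (8 / 25) ^ 2 * (1 - y ^ 2) ^ 2 - 6 * (7 / 34) ^ 2 * y ^ 2) := by positivity
  have h2 : 0 ≤ 8 / 25 * k0 * (1 - y) ^ 2 := by positivity
  have h3 : 0 ≤ 8 / 25 * (2 * (34 / 7) ^ 2 * t⁻¹) * ((7 / 34) ^ 2 * t * k0 * y - w) :=
    mul_nonneg (by positivity) (by linarith)
  linarith

variable {P : Type*} [TopologicalSpace P] [CompactSpace P] [MeasurableSpace P] [BorelSpace P]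
  {m : Measure P} [IsFiniteMeasure m] {c : Cal (intL m)} {J : C(P, ℝ) →L[ℝ] ℝ}

/-- **Assembly for pointwise pinching.** -/
theorem const_of_rel [m.IsOpenPosMeasure] {C : Curv c} (D : UData c C)
    {h : ℝ} (Q : PsiData D J h)
    (wpx : ∀ F F' : C(P, ℝ), WX c F F' → intL m (F * F') = 0)
    {ε : ℝ} (hε : 0 < ε)
    (hpos : ∀ x a b, ε * (a ^ 2 + b ^ 2) ≤ D.U 0 0 x * a ^ 2 + 2 * D.U 0 1 x * (a * b) +
      D.U 1 1 x * b ^ 2)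
    (hk : ∀ x, ((C.K 0 0 x - C.K 1 1 x) / 2) ^ 2 + (C.K 0 1 x) ^ 2 ≤
      (7 / 34) ^ 2 * (C.K 0 0 x + C.K 1 1 x) ^ 2)
    (h0 : ∀ x, 0 ≤ C.K 0 0 x + C.K 1 1 x)
    (hb : ∀ x, ((D.U 0 0 x - D.U 1 1 x) / 2) ^ 2 + (D.U 0 1 x) ^ 2 ≤
      (7 / 34) ^ 2 * (D.U 0 0 x + D.U 1 1 x) ^ 2) :
    (∀ x, (C.E22 : C(P, ℝ)) x = (h / 2) ^ 2) ∧ (∀ x, (C.E11 : C(P, ℝ)) x = (h / 2) ^ 2) ∧
      (∀ x, (C.E12 : C(P, ℝ)) x = 0) ∧
      (∀ x i j, D.U i j x = if i = j then h / 2 else 0) := by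
  have ht : ∀ x, 0 < (D.U 0 0 + D.U 1 1) x := fun x => by
    have h1 := hpos x 1 0
    have h2 := hpos x 0 1
    rw [ContinuousMap.add_apply]
    nlinarith
  obtain ⟨g, hg, jg⟩ := exists_jet_inv ((D.jU 0 0).add (D.jU 1 1)) ht
  have jp := jet_smul ((D.jU 0 0).sub (D.jU 1 1)) (1 / 2 : ℝ)
  have jB := (jp.mul jp).add ((D.jU 0 1).mul (D.jU 0 1))
  have jl := jet_smul (((D.jU 0 0).add (D.jU 1 1)).sub (jet_smul (jB.mul jg) ((34 / 7 : ℝ) ^ 2)))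
    (8 / 25 : ℝ)
  refine const_of_data_var D Q wpx hε hpos jl fun x => ?_
  have r00 := D.ric 0 0
  have r01 := D.ric 0 1
  have r11 := D.ric 1 1
  simp only [Fin.sum_univ_two, D.symU] at r00 r01 r11
  have key := rel_ineq (t := D.U 0 0 x + D.U 1 1 x)
    (B := ((D.U 0 0 x - D.U 1 1 x) / 2) ^ 2 + (D.U 0 1 x) ^ 2)
    (k0 := C.K 0 0 x + C.K 1 1 x)
    (w := (D.U 0 0 x - D.U 1 1 x) / 2 * ((C.K 0 0 x - C.K 1 1 x) / 2) + D.U 0 1 x * C.K 0 1 x)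
    (ht x) (by positivity) (hb x) (h0 x) (by
      refine le_trans ?_ (mul_le_mul_of_nonneg_right (hk x) (by positivity))
      nlinarith [sq_nonneg ((D.U 0 0 x - D.U 1 1 x) / 2 * C.K 0 1 x -
        D.U 0 1 x * ((C.K 0 0 x - C.K 1 1 x) / 2))])
  have hgx := hg x
  refine lt_of_lt_of_eq key ?_
  simp only [ContinuousMap.smul_apply, ContinuousMap.add_apply, ContinuousMap.sub_apply,
    ContinuousMap.mul_apply, ContinuousMap.neg_apply, ContinuousMap.pow_apply, smul_eq_mul,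
    r00, r01, r11, hgx]
  ring

end Vale.Agent.P207.Q.H413
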