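import Vale.Agent.P207.Q.H413.Inst
import Vale.Agent.P207.Q.H183.JetInt
import Mathlib.Analysis.SpecificLimits.Normed

/-!
# P207: the analytic assembly with a variable multiplier

The identity (Y) is used with a `C¹` function `l` on the frame bundle instead of a constant.
-/

open MeasureTheory Filter Topology ComplexConjugate

noncomputable section

namespace Vale.Agent.P207.Q.H413

open Vale.Agent.P207.Q.H892 (Curv cod_of_curv)
open Vale.Agent.P207.Q.H545 (fN fS fY fQ key_pointwise)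

section Alg

variable {A : Type*} [NormedCommRing A] [NormedAlgebra ℝ A] {I : A →L[ℝ] ℝ} {c : Cal I}

/-- product rule for the weak `X`-derivative -/
theorem WX.mul_jet {F F' l : A} {dl : Idx → A} (hF : WX c F F') (hl : Jet c l dl) :
    WX c (l * F) (dl .X * F + l * F') := by
  obtain ⟨u, hu, hu'⟩ := hl
  intro f
  have e1 : Tendsto (fun n => I ((u n : A) * F * (c.Y .X f : c.S))) atTop
      (𝓝 (I (l * F * (c.Y .X f : c.S)))) :=
    (I.continuous.tendsto _).comp ((hu.mul_const _).mul_const _)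
  have e2 : Tendsto (fun n => - I ((((c.Y .X (u n) : c.S) : A) * F + (u n : A) * F') * f)) atTop
      (𝓝 (- I ((dl .X * F + l * F') * f))) :=
    ((I.continuous.tendsto _).comp
      ((((hu' .X).mul_const _).add (hu.mul_const _)).mul_const _)).neg
  refine tendsto_nhds_unique e1 (e2.congr fun n => ?_)
  have h1 := hF (u n * f)
  have h2 : ((c.Y .X (u n * f) : c.S) : A) =
      (u n : A) * ((c.Y .X f : c.S) : A) + (f : A) * ((c.Y .X (u n) : c.S) : A) := by
    rw [Derivation.leibniz]; simp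
  rw [h2] at h1
  have h3 : F * ((u n : A) * ((c.Y .X f : c.S) : A) + (f : A) * ((c.Y .X (u n) : c.S) : A)) =
      (u n : A) * F * ((c.Y .X f : c.S) : A) + ((c.Y .X (u n) : c.S) : A) * F * f := by ring
  have h4 : (((c.Y .X (u n) : c.S) : A) * F + (u n : A) * F') * f =
      ((c.Y .X (u n) : c.S) : A) * F * f + F' * ((u n * f : c.S) : A) := by
    have : ((u n * f : c.S) : A) = (u n : A) * (f : A) := rfl
    rw [this]; ring
  rw [h3, map_add] at h1
  rw [h4, map_add]
  linarith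

namespace Data

variable {J : A →L[ℝ] ℝ} (D : Data c J)

/-- (Y) for one index with a variable multiplier -/
theorem idY_aux {l : A} {dl : Idx → A} (jl : Jet c l dl) (i : Fin 2) :
    I (dl .X * (D.av i * D.av i) + 2 * l * (D.av i * (D.v i + D.p i + ∑ j, D.U i j * D.av j)))
      = 0 := by
  have h := D.wpx' (D.wx_a i) ((D.wx_a i).mul_jet jl)
  rw [← h]
  congr 1
  ring

/-- The identity (Y) with a variable multiplier. -/
theorem idY_var {l : A} {dl : Idx → A} (jl : Jet c l dl) :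
    I (dl .X * (D.av 0 * D.av 0 + D.av 1 * D.av 1) + 2 * l *
      (D.av 0 * (D.v 0 + D.p 0 + (D.U 0 0 * D.av 0 + D.U 0 1 * D.av 1))
        + D.av 1 * (D.v 1 + D.p 1 + (D.U 0 1 * D.av 0 + D.U 1 1 * D.av 1)))) = 0 := by
  have w0 := D.idY_aux jl 0
  have w1 := D.idY_aux jl 1
  simp only [Fin.sum_univ_two, D.symU] at w0 w1
  have e := congrArg₂ (· + ·) w0 w1
  simp only [← map_add, add_zero] at e
  rw [← e]
  congr 1
  ring

end Data

end Alg

variable {P : Type*} [TopologicalSpace P] [CompactSpace P] [MeasurableSpace P] [BorelSpace P]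

/-- **KEY** (integrated, variable multiplier): all squares vanish. -/
theorem key_var {m : Measure P} [IsFiniteMeasure m] [m.IsOpenPosMeasure]
    {a b v β₁ β₃ : P → ℂ} {t lam xlam : P → ℝ}
    (ha : Continuous a) (hb : Continuous b) (hv : Continuous v) (h1 : Continuous β₁)
    (h3 : Continuous β₃) (ht : Continuous t) (hl : Continuous lam) (hx : Continuous xlam)
    (hc : ∀ p, 0 < xlam p + lam p * t p - 3 / 2 * lam p ^ 2 - 6 * ‖b p‖ ^ 2)
    (hN : ∫ p, fN (a p) (b p) (v p) (β₁ p) (β₃ p) ∂m = 0)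
    (hS : ∫ p, fS (b p) (β₁ p) (β₃ p) ∂m = 0)
    (hY : ∫ p, fY (lam p) (xlam p) (t p) (a p) (b p) (v p) (β₁ p) ∂m = 0) :
    a = 0 ∧ b = 0 ∧ v = 0 ∧ β₁ = 0 ∧ β₃ = 0 := by
  have cN : Continuous fun p => fN (a p) (b p) (v p) (β₁ p) (β₃ p) := by
    unfold fN; fun_prop
  have cS : Continuous fun p => fS (b p) (β₁ p) (β₃ p) := by
    unfold fS; fun_prop
  have cY : Continuous fun p => fY (lam p) (xlam p) (t p) (a p) (b p) (v p) (β₁ p) := by
    unfold fY; fun_prop
  have cQ : Continuous fun p => fQ (lam p) (xlam p) (t p) (a p) (b p) (v p) (β₁ p) (β₃ p) := by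
    unfold fQ; fun_prop
  have iN := cN.integrable_of_hasCompactSupport (μ := m) (HasCompactSupport.of_compactSpace _)
  have iS := cS.integrable_of_hasCompactSupport (μ := m) (HasCompactSupport.of_compactSpace _)
  have iY := cY.integrable_of_hasCompactSupport (μ := m) (HasCompactSupport.of_compactSpace _)
  have hQ : ∫ p, fQ (lam p) (xlam p) (t p) (a p) (b p) (v p) (β₁ p) (β₃ p) ∂m = 0 := by
    have : (fun p => fQ (lam p) (xlam p) (t p) (a p) (b p) (v p) (β₁ p) (β₃ p)) = fun p =>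
        (fN (a p) (b p) (v p) (β₁ p) (β₃ p) + fS (b p) (β₁ p) (β₃ p)) +
          fY (lam p) (xlam p) (t p) (a p) (b p) (v p) (β₁ p) := by
      funext p; exact (key_pointwise _ _ _ _ _ _ _ _).symm
    have e1 := integral_add (iN.add iS) iY
    have e2 := integral_add iN iS
    simp only [Pi.add_apply] at e1
    rw [this, e1, e2, hN, hS, hY]
    simp
  have hc' : ∀ p, 0 ≤ (xlam p + lam p * t p - 3 / 2 * lam p ^ 2 - 6 * ‖b p‖ ^ 2) * ‖a p‖ ^ 2 :=
    fun p => mul_nonneg (hc p).le (by positivity)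
  have hQ0 : ∀ p, 0 ≤ fQ (lam p) (xlam p) (t p) (a p) (b p) (v p) (β₁ p) (β₃ p) := fun p => by
    unfold fQ
    have := hc' p
    positivity
  have hz : (fun p => fQ (lam p) (xlam p) (t p) (a p) (b p) (v p) (β₁ p) (β₃ p)) = 0 := by
    have h := (integral_eq_zero_iff_of_nonneg (μ := m) (fun p => hQ0 p)
      (cQ.integrable_of_hasCompactSupport (HasCompactSupport.of_compactSpace _))).1 hQ
    exact Continuous.ae_eq_iff_eq m cQ continuous_const |>.1 h
  have hz' : ∀ p, b p = 0 ∧ a p = 0 ∧ v p = 0 ∧ β₁ p = 0 ∧ β₃ p = 0 := by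
    intro p
    have h0 : fQ (lam p) (xlam p) (t p) (a p) (b p) (v p) (β₁ p) (β₃ p) = 0 := congrFun hz p
    unfold fQ at h0
    have e1 : (0 : ℝ) ≤ ‖β₃ p - 2 * a p * b p‖ ^ 2 := by positivity
    have e2 : (0 : ℝ) ≤ ‖β₁ p + v p + lam p * a p‖ ^ 2 := by positivity
    have e3 : (0 : ℝ) ≤ 1 / 2 * ‖v p + lam p * a p + 2 * conj (a p) * b p‖ ^ 2 := by positivity
    have e4 : (0 : ℝ) ≤ 4 * ‖b p‖ ^ 2 := by positivity
    have e5 := hc' p
    have hb0 : b p = 0 := by
      have : ‖b p‖ ^ 2 = 0 := by linarith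
      simpa using this
    have ha0 : a p = 0 := by
      have h5 : (xlam p + lam p * t p - 3 / 2 * lam p ^ 2 - 6 * ‖b p‖ ^ 2) * ‖a p‖ ^ 2 = 0 := by
        linarith
      rcases mul_eq_zero.1 h5 with h6 | h6
      · exact absurd h6 (hc p).ne'
      · simpa using h6
    have hv0 : v p = 0 := by
      have h6 : ‖v p + lam p * a p + 2 * conj (a p) * b p‖ ^ 2 = 0 := by linarith
      simpa [ha0, hb0] using h6
    have h10 : β₁ p = 0 := by
      have h6 : ‖β₁ p + v p + lam p * a p‖ ^ 2 = 0 := by linarith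
      simpa [ha0, hv0] using h6
    have h30 : β₃ p = 0 := by
      have h6 : ‖β₃ p - 2 * a p * b p‖ ^ 2 = 0 := by linarith
      simpa [ha0, hb0] using h6
    exact ⟨hb0, ha0, hv0, h10, h30⟩
  exact ⟨funext fun p => (hz' p).2.1, funext fun p => (hz' p).1, funext fun p => (hz' p).2.2.1,
    funext fun p => (hz' p).2.2.2.1, funext fun p => (hz' p).2.2.2.2⟩

variable {m : Measure P} [IsFiniteMeasure m] {c : Cal (intL m)} {J : C(P, ℝ) →L[ℝ] ℝ}

namespace Data

variable (D : Data c J)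

/-- (Y) in the complex form, variable multiplier -/
theorem cY_var {l : C(P, ℝ)} {dl : Idx → C(P, ℝ)} (jl : Jet c l dl) :
    ∫ x, fY (l x) (dl .X x) (D.U 0 0 x + D.U 1 1 x) (D.ca x) (D.cb x) (D.cv x)
    (D.cβ1 x) ∂m = 0 := by
  have h := D.idY_var jl
  rw [intL_apply] at h
  rw [← h]
  congr 1
  funext x
  simp only [H545.fY, H545.nsq, ca, cb, cv, cβ1, v, p, av, dt, Fin.sum_univ_two,
    ContinuousMap.add_apply, ContinuousMap.mul_apply, two_apply,
    D.symd, Complex.mul_re, Complex.mul_im, Complex.conj_re,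
    Complex.conj_im, pow_two (conj _)]
  ring

/-- **Rigidity**, variable multiplier. -/
theorem rigid_var [m.IsOpenPosMeasure] {l : C(P, ℝ)} {dl : Idx → C(P, ℝ)} (jl : Jet c l dl)
    (hc : ∀ x, 0 < dl .X x + l x * (D.U 0 0 x + D.U 1 1 x) - 3 / 2 * l x ^ 2
      - 6 * (((D.U 0 0 x - D.U 1 1 x) / 2) ^ 2 + (D.U 0 1 x) ^ 2)) :
    D.U 0 0 = D.U 1 1 ∧ D.U 0 1 = 0 ∧ (∀ i, D.a (.V i) = 0) ∧
      (∀ i j k, D.dU i j (.V k) = 0) := by
  have hk := key_var (m := m) D.cont_a D.cont_b D.cont_v D.cont_β1 D.cont_β3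
    (t := fun x => D.U 0 0 x + D.U 1 1 x) (lam := fun x => l x) (xlam := fun x => dl .X x)
    ((D.U 0 0).continuous.add (D.U 1 1).continuous) l.continuous (dl .X).continuous (fun x => by
      have := hc x
      have e : ‖D.cb x‖ ^ 2 = ((D.U 0 0 x - D.U 1 1 x) / 2) ^ 2 + (D.U 0 1 x) ^ 2 := by
        rw [H545.nsq]; simp only [cb]; ring
      rw [e]; exact this) D.cN D.cS (D.cY_var jl)
  obtain ⟨h1, h2, h3, h4, h5⟩ := hk
  have a0 : ∀ x, D.av 0 x = 0 := fun x => congrArg Complex.re (congrFun h1 x)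
  have a1 : ∀ x, D.av 1 x = 0 := fun x => congrArg Complex.im (congrFun h1 x)
  have b0 : ∀ x, (D.U 0 0 x - D.U 1 1 x) / 2 = 0 := fun x => congrArg Complex.re (congrFun h2 x)
  have b1 : ∀ x, D.U 0 1 x = 0 := fun x => congrArg Complex.im (congrFun h2 x)
  have v0 : ∀ x, D.dU 0 0 (.V 0) x + D.dU 1 1 (.V 0) x = 0 := fun x =>
    congrArg Complex.re (congrFun h3 x)
  have v1 : ∀ x, D.dU 0 0 (.V 1) x + D.dU 1 1 (.V 1) x = 0 := fun x =>
    congrArg Complex.im (congrFun h3 x)
  have r1 : ∀ x, (D.dU 0 0 (.V 0) x - D.dU 1 1 (.V 0) x) / 2 + D.dU 0 1 (.V 1) x = 0 := fun x =>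
    congrArg Complex.re (congrFun h4 x)
  have i1 : ∀ x, D.dU 0 1 (.V 0) x - (D.dU 0 0 (.V 1) x - D.dU 1 1 (.V 1) x) / 2 = 0 := fun x =>
    congrArg Complex.im (congrFun h4 x)
  have r3 : ∀ x, (D.dU 0 0 (.V 0) x - D.dU 1 1 (.V 0) x) / 2 - D.dU 0 1 (.V 1) x = 0 := fun x =>
    congrArg Complex.re (congrFun h5 x)
  have i3 : ∀ x, D.dU 0 1 (.V 0) x + (D.dU 0 0 (.V 1) x - D.dU 1 1 (.V 1) x) / 2 = 0 := fun x =>
    congrArg Complex.im (congrFun h5 x)
  refine ⟨ContinuousMap.ext fun x => ?_, ContinuousMap.ext fun x => b1 x, fun i => ?_,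
    fun i j k => ?_⟩
  · linarith [b0 x]
  · fin_cases i
    · exact ContinuousMap.ext fun x => a0 x
    · exact ContinuousMap.ext fun x => a1 x
  · refine ContinuousMap.ext fun x => ?_
    have := v0 x; have := v1 x; have := r1 x; have := i1 x; have := r3 x; have := i3 x
    have e := D.symd
    fin_cases i <;> fin_cases j <;> fin_cases k <;>
      simp only [Fin.zero_eta, Fin.mk_one, e, ContinuousMap.zero_apply] <;>
      linarith

/-- **Constant curvature**, variable multiplier. -/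
theorem const_curv_var [m.IsOpenPosMeasure] {l : C(P, ℝ)} {dl : Idx → C(P, ℝ)}
    (jl : Jet c l dl)
    (hc : ∀ x, 0 < dl .X x + l x * (D.U 0 0 x + D.U 1 1 x) - 3 / 2 * l x ^ 2
      - 6 * (((D.U 0 0 x - D.U 1 1 x) / 2) ^ 2 + (D.U 0 1 x) ^ 2)) :
    (∀ x i j, D.U i j x = if i = j then D.h / 2 else 0) ∧
      (∀ x i j, D.K i j x = if i = j then (D.h / 2) ^ 2 else 0) := by
  obtain ⟨h1, h2, h3, h4⟩ := D.rigid_var jl hc
  have ht : D.t - algebraMap ℝ C(P, ℝ) D.h = 0 := by
    obtain ⟨u, hu, -⟩ := D.jt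
    refine eq_zero_of_orth c (u := fun n => u n - algebraMap ℝ c.S D.h) ?_ (D.int_th h3 h4)
    have := hu.sub_const (algebraMap ℝ C(P, ℝ) D.h)
    simpa using this
  have hx : ∀ x, D.U 0 0 x + D.U 1 1 x = D.h := fun x => by
    have := congrArg (fun f : C(P, ℝ) => f x) ht
    simp only [t, ContinuousMap.sub_apply, ContinuousMap.add_apply, ContinuousMap.zero_apply]
      at this
    have e : (algebraMap ℝ C(P, ℝ) D.h) x = D.h := rfl
    rw [e] at this
    linarith
  have hU : ∀ x i j, D.U i j x = if i = j then D.h / 2 else 0 := by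
    intro x i j
    have e1 : D.U 0 0 x = D.U 1 1 x := by rw [h1]
    have e2 := hx x
    have e3 : D.U 0 1 x = 0 := by rw [h2]; rfl
    have e4 : D.U 1 0 x = 0 := by rw [D.symU]; exact e3
    fin_cases i <;> fin_cases j
    · simp only [Fin.zero_eta, if_true]; linarith
    · simpa using e3
    · simpa using e4
    · simp only [Fin.mk_one, if_true]; linarith
  have hd : ∀ i j, D.dU i j .X = 0 := by
    intro i j
    refine jet_const (D.jU i j) (r := if i = j then D.h / 2 else 0)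
      (ContinuousMap.ext fun x => ?_) .X
    rw [hU x i j]; rfl
  refine ⟨hU, fun x i j => ?_⟩
  have h5 := congrArg (fun f : C(P, ℝ) => f x) (D.ric i j)
  simp only [hd, ContinuousMap.zero_apply, ContinuousMap.sub_apply, Fin.sum_univ_two,
    ContinuousMap.add_apply, ContinuousMap.mul_apply, hU] at h5
  fin_cases i <;> fin_cases j <;>
    simp only [Fin.zero_eta, Fin.mk_one, Fin.isValue, if_true, zero_ne_one, one_ne_zero,
      if_false] at h5 ⊢ <;> linarith

end Data

/-- **Assembly**, variable multiplier. -/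
theorem const_of_data_var [m.IsOpenPosMeasure] {C : Curv c} (D : UData c C)
    {h : ℝ} (Q : PsiData D J h)
    (wpx : ∀ F F' : C(P, ℝ), WX c F F' → intL m (F * F') = 0)
    {ε : ℝ} (hε : 0 < ε)
    (hpos : ∀ x a b, ε * (a ^ 2 + b ^ 2) ≤ D.U 0 0 x * a ^ 2 + 2 * D.U 0 1 x * (a * b) +
      D.U 1 1 x * b ^ 2)
    {l : C(P, ℝ)} {dl : Idx → C(P, ℝ)} (jl : Jet c l dl)
    (hc : ∀ x, 0 < dl .X x + l x * (D.U 0 0 x + D.U 1 1 x) - 3 / 2 * l x ^ 2
      - 6 * (((D.U 0 0 x - D.U 1 1 x) / 2) ^ 2 + (D.U 0 1 x) ^ 2)) :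
    (∀ x, (C.E22 : C(P, ℝ)) x = (h / 2) ^ 2) ∧ (∀ x, (C.E11 : C(P, ℝ)) x = (h / 2) ^ 2) ∧
      (∀ x, (C.E12 : C(P, ℝ)) x = 0) ∧
      (∀ x i j, D.U i j x = if i = j then h / 2 else 0) := by
  let D' : Data c J :=
    { wpx := wpx
      U := D.U
      dU := D.dU
      K := C.K
      dK := fun k => ((c.Y k (C.E22 + C.E11) : c.S) : C(P, ℝ))
      a := Q.a
      h := h
      jU := D.jU
      jK := (Jet.of_mem (C.E22 + C.E11)).congr (by simp [Curv.K]) fun _ => rfl
      symU := D.symU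
      symd := D.symd
      ric := D.ric
      R00 := D.R00
      R01 := D.R01
      R11 := D.R11
      cod := cod_of_curv C D.jU D.symU D.symd D.ric D.R00 D.R01 D.R11 wpx hε hpos
      weak := Q.weak
      aX := Q.aX
      aR := Q.aR
      aH := Q.aH }
  obtain ⟨h1, h2⟩ := D'.const_curv_var jl hc
  refine ⟨fun x => ?_, fun x => ?_, fun x => ?_, h1⟩
  · have := h2 x 0 0
    simpa [D', Curv.K] using this
  · have := h2 x 1 1
    simpa [D', Curv.K] using this
  · have := h2 x 0 1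
    simpa [D', Curv.K] using this

end Vale.Agent.P207.Q.H413
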