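import Vale.Agent.P207.Q.H413.FlowCal

/-!
# P207: functions of jets (`1/f`, `log f`)
-/

open MeasureTheory Filter Topology Set

noncomputable section

namespace Vale.Agent.P207.Q.H413

variable {P : Type*} [TopologicalSpace P] [CompactSpace P]

/-- composition with a function which is continuous on `(0, ∞)` -/
def compPos (F : ℝ → ℝ) (hF : ContinuousOn F (Ioi 0)) (f : C(P, ℝ)) (hf : ∀ x, 0 < f x) :
    C(P, ℝ) :=
  ⟨fun x => F (f x), hF.comp_continuous f.continuous hf⟩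

@[simp] theorem compPos_apply (F : ℝ → ℝ) (hF : ContinuousOn F (Ioi 0)) (f : C(P, ℝ))
    (hf : ∀ x, 0 < f x) (x : P) : compPos F hF f hf x = F (f x) := rfl

theorem exists_lower {f : C(P, ℝ)} (hf : ∀ x, 0 < f x) : ∃ a > 0, ∀ x, a ≤ f x := by
  rcases isEmpty_or_nonempty P with h | h
  · exact ⟨1, one_pos, fun x => h.elim x⟩
  · obtain ⟨x, -, hx⟩ := isCompact_univ.exists_isMinOn univ_nonempty f.continuous.continuousOn
    exact ⟨f x, hf x, fun y => hx (mem_univ y)⟩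

/-- truncation of `F` to a continuous function on `ℝ` -/
def trunc (F : ℝ → ℝ) (hF : ContinuousOn F (Ioi 0)) {a : ℝ} (ha : 0 < a) : C(ℝ, ℝ) :=
  ⟨fun x => F (max x a), hF.comp_continuous (continuous_id.max continuous_const)
    fun _ => lt_max_of_lt_right ha⟩

theorem tendsto_compPos {F : ℝ → ℝ} (hF : ContinuousOn F (Ioi 0)) {f : C(P, ℝ)}
    (hf : ∀ x, 0 < f x) {u : ℕ → C(P, ℝ)} (hu : Tendsto u atTop (𝓝 f)) {w : ℕ → C(P, ℝ)}
    (hw : ∀ n, (h : ∀ x, 0 < u n x) → w n = compPos F hF (u n) h) :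
    (∀ᶠ n in atTop, ∀ x, 0 < u n x) ∧ Tendsto w atTop (𝓝 (compPos F hF f hf)) := by
  obtain ⟨a, ha, hfa⟩ := exists_lower hf
  have ha2 : 0 < a / 2 := by linarith
  have hev : ∀ᶠ n in atTop, ∀ x, a / 2 ≤ u n x := by
    filter_upwards [(Metric.tendsto_nhds.1 hu) (a / 2) ha2] with n hn x
    have h1 := (ContinuousMap.dist_apply_le_dist (f := u n) (g := f) x).trans_lt hn
    rw [Real.dist_eq, abs_lt] at h1
    linarith [hfa x, h1.1]
  refine ⟨hev.mono fun n hn x => ha2.trans_le (hn x), ?_⟩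
  have h2 : Tendsto (fun n => (trunc F hF ha2).comp (u n)) atTop
      (𝓝 ((trunc F hF ha2).comp f)) :=
    ((ContinuousMap.continuous_postcomp (trunc F hF ha2)).tendsto f).comp hu
  have h3 : (trunc F hF ha2).comp f = compPos F hF f hf := by
    refine ContinuousMap.ext fun x => ?_
    simp only [trunc, ContinuousMap.comp_apply, ContinuousMap.coe_mk, compPos_apply]
    rw [max_eq_left]; linarith [hfa x]
  rw [h3] at h2
  refine h2.congr' (hev.mono fun n hn => ?_)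
  rw [hw n fun x => ha2.trans_le (hn x)]
  refine ContinuousMap.ext fun x => ?_
  simp only [trunc, ContinuousMap.comp_apply, ContinuousMap.coe_mk, compPos_apply]
  rw [max_eq_left (hn x)]

variable [MeasurableSpace P] [BorelSpace P] {m : Measure P} {F : Flows m}

/-- chain rule in `S` -/
theorem SClass.dd_comp (C : SClass F) {G G' : ℝ → ℝ} (hG : ∀ x, 0 < x → HasDerivAt G (G' x) x)
    (hGc : ContinuousOn G (Ioi 0)) (hGc' : ContinuousOn G' (Ioi 0)) (f : C.S)
    (hf : ∀ x, 0 < (f : C(P, ℝ)) x) (hS : compPos G hGc (f : C(P, ℝ)) hf ∈ C.S) (k : Idx) :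
    (C.dd k ⟨_, hS⟩ : C(P, ℝ)) = compPos G' hGc' (f : C(P, ℝ)) hf * (C.dd k f : C(P, ℝ)) := by
  refine ContinuousMap.ext fun x => ?_
  have h1 := C.hasDerivAt_dd k ⟨_, hS⟩ x
  have h2 := C.hasDerivAt_dd k f x
  have h3 : HasDerivAt G (G' ((f : C(P, ℝ)) x)) ((f : C(P, ℝ)) (F.Φ k 0 x)) := by
    rw [F.zero]; exact hG _ (hf x)
  exact h1.unique (h3.comp 0 h2)

variable [IsProbabilityMeasure m] [SecondCountableTopology P]

/-- **Functions of jets.** -/
theorem jet_comp (C : SClass F) {VX VH VV} {G G' : ℝ → ℝ}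
    (hG : ∀ x, 0 < x → HasDerivAt G (G' x) x)
    (hGc : ContinuousOn G (Ioi 0)) (hGc' : ContinuousOn G' (Ioi 0))
    (hS : ∀ f ∈ C.S, ∀ hf : ∀ x, 0 < f x, compPos G hGc f hf ∈ C.S)
    {f : C(P, ℝ)} {d : Idx → C(P, ℝ)} (hj : Jet (C.cal VX VH VV) f d) (hf : ∀ x, 0 < f x) :
    Jet (C.cal VX VH VV) (compPos G hGc f hf) (fun k => compPos G' hGc' f hf * d k) := by
  classical
  obtain ⟨u, hu, hu'⟩ := hj
  let w : ℕ → C.S := fun n => if h : ∀ x, 0 < (u n : C(P, ℝ)) x then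
    ⟨compPos G hGc (u n : C(P, ℝ)) h, hS _ (u n).2 h⟩ else 0
  let w' : ℕ → C(P, ℝ) := fun n => if h : ∀ x, 0 < (u n : C(P, ℝ)) x then
    compPos G' hGc' (u n : C(P, ℝ)) h else 0
  have h1 := tendsto_compPos hGc hf hu (w := fun n => (w n : C(P, ℝ))) (fun n h => by
    simp only [w]; rw [dif_pos h])
  have h2 := tendsto_compPos hGc' hf hu (w := w') (fun n h => by
    simp only [w']; rw [dif_pos h])
  refine ⟨w, h1.2, fun k => ?_⟩
  refine (h2.2.mul (hu' k)).congr' (h1.1.mono fun n hn => ?_)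
  have h3 := C.dd_comp hG hGc hGc' (u n) hn (hS _ (u n).2 hn) k
  have h4 : w n = ⟨compPos G hGc (u n : C(P, ℝ)) hn, hS _ (u n).2 hn⟩ := by
    simp only [w]; rw [dif_pos hn]
  have h5 : w' n = compPos G' hGc' (u n : C(P, ℝ)) hn := by
    simp only [w']; rw [dif_pos hn]
  change w' n * (C.dd k (u n) : C(P, ℝ)) = (C.dd k (w n) : C(P, ℝ))
  rw [h4, h5]
  exact h3.symm

theorem continuousOn_inv_pos : ContinuousOn (fun x : ℝ => x⁻¹) (Ioi 0) :=
  continuousOn_id.inv₀ fun _ hx => (ne_of_gt hx)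

theorem continuousOn_log_pos : ContinuousOn Real.log (Ioi 0) :=
  Real.continuousOn_log.mono fun _ hx => ne_of_gt hx

/-- the jet of `1/f` -/
theorem jet_inv (C : SClass F) {VX VH VV}
    (hS : ∀ f ∈ C.S, ∀ hf : ∀ x, 0 < f x, compPos _ continuousOn_inv_pos f hf ∈ C.S)
    {f : C(P, ℝ)} {d : Idx → C(P, ℝ)} (hj : Jet (C.cal VX VH VV) f d) (hf : ∀ x, 0 < f x) :
    Jet (C.cal VX VH VV) (compPos _ continuousOn_inv_pos f hf)
      (fun k => - (compPos _ continuousOn_inv_pos f hf) ^ 2 * d k) := by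
  have hc : ContinuousOn (fun x : ℝ => -(x ^ 2)⁻¹) (Ioi 0) :=
    ((continuousOn_pow 2).inv₀ fun x hx => by
      have : (0 : ℝ) < x := hx
      positivity).neg
  refine (jet_comp C (G := fun x => x⁻¹) (G' := fun x => -(x ^ 2)⁻¹)
    (fun x hx => hasDerivAt_inv hx.ne') continuousOn_inv_pos hc hS hj hf).congr rfl fun k => ?_
  refine ContinuousMap.ext fun x => ?_
  simp

/-- the jet of `log f` -/
theorem jet_log (C : SClass F) {VX VH VV}
    (hS : ∀ f ∈ C.S, ∀ hf : ∀ x, 0 < f x, compPos _ continuousOn_log_pos f hf ∈ C.S)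
    {f : C(P, ℝ)} {d : Idx → C(P, ℝ)} (hj : Jet (C.cal VX VH VV) f d) (hf : ∀ x, 0 < f x) :
    Jet (C.cal VX VH VV) (compPos _ continuousOn_log_pos f hf)
      (fun k => compPos _ continuousOn_inv_pos f hf * d k) :=
  jet_comp C (G := Real.log) (G' := fun x => x⁻¹)
    (fun x hx => Real.hasDerivAt_log hx.ne') continuousOn_log_pos continuousOn_inv_pos hS hj hf

end Vale.Agent.P207.Q.H413
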