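import Vale.Agent.P207.Q.H413.ConstVar
import Vale.Agent.P207.Q.H413.Func

/-!
# P207: the jet of `1/f`
-/

open MeasureTheory Filter Topology

noncomputable section

namespace Vale.Agent.P207.Q.H413

open Vale.Agent.P207.Q.H183 (jet_of_tendsto jet_smul)

section Alg

variable {A : Type*} [NormedCommRing A] [NormedAlgebra ℝ A] {I : A →L[ℝ] ℝ} {c : Cal I}

theorem Jet.one (c : Cal I) : Jet c (1 : A) (fun _ => 0) := by
  have h := Jet.of_mem (c := c) (1 : c.S)
  refine h.congr rfl fun k => ?_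
  rw [Derivation.map_one_eq_zero]
  rfl

theorem Jet.pow_succ {f : A} {d : Idx → A} (hf : Jet c f d) (n : ℕ) :
    Jet c (f ^ (n + 1)) (fun k => ((n : A) + 1) * f ^ n * d k) := by
  induction n with
  | zero =>
    refine hf.congr (by simp) fun k => ?_
    simp
  | succ n ih =>
    refine (ih.mul hf).congr (_root_.pow_succ f (n + 1)).symm fun k => ?_
    push_cast
    ring

theorem Jet.geom [CompleteSpace A] {r : A} {dr : Idx → A} (hr : ‖r‖ < 1) (hj : Jet c r dr) :
    Jet c (Ring.inverse (1 - r)) (fun k => Ring.inverse (1 - r) ^ 2 * dr k) := by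
  have hp : ∀ n : ℕ, Jet c (∑ i ∈ Finset.range (n + 1), r ^ i)
      (fun k => (∑ i ∈ Finset.range n, ((i + 1).choose 1 : A) * r ^ i) * dr k) := by
    intro n
    induction n with
    | zero =>
      refine (Jet.one c).congr (by simp) fun k => ?_
      simp
    | succ n ih =>
      refine (ih.add (hj.pow_succ n)).congr ?_ fun k => ?_
      · rw [Finset.sum_range_succ _ (n + 1)]
      · rw [Finset.sum_range_succ]
        simp only [Nat.choose_one_right]
        push_cast
        ring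
  have h1 := (hasSum_geom_series_inverse r hr).tendsto_sum_nat
  have h2 := (hasSum_choose_mul_geometric_of_norm_lt_one' 1 hr).tendsto_sum_nat
  refine jet_of_tendsto hp ((tendsto_add_atTop_iff_nat 1).2 h1) fun k => ?_
  exact h2.mul_const _

end Alg

variable {P : Type*} [TopologicalSpace P] [CompactSpace P] [MeasurableSpace P] [BorelSpace P]
  {m : Measure P} [IsFiniteMeasure m] {c : Cal (intL m)}

/-- the jet of `1/f` -/
theorem exists_jet_inv {f : C(P, ℝ)} {d : Idx → C(P, ℝ)} (hj : Jet c f d)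
    (hf : ∀ x, 0 < f x) : ∃ g : C(P, ℝ), (∀ x, g x = (f x)⁻¹) ∧
      Jet c g (fun k => -(g ^ 2 * d k)) := by
  obtain ⟨a, ha, hfa⟩ := exists_lower hf
  set T : ℝ := ‖f‖ + a with hT
  have hT0 : 0 < T := by positivity
  set r : C(P, ℝ) := 1 - T⁻¹ • f with hr
  have hnr : ‖r‖ < 1 := by
    have h1 : ‖r‖ ≤ 1 - T⁻¹ * a := by
      have h0 : 0 ≤ 1 - T⁻¹ * a := by
        have : T⁻¹ * a ≤ T⁻¹ * T := by gcongr; rw [hT]; linarith [norm_nonneg f]
        rw [inv_mul_cancel₀ hT0.ne'] at this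
        linarith
      refine (ContinuousMap.norm_le _ h0).2 fun x => ?_
      have h2 : r x = 1 - T⁻¹ * f x := rfl
      rw [h2, Real.norm_eq_abs, abs_le]
      have h3 : T⁻¹ * a ≤ T⁻¹ * f x := by gcongr; exact hfa x
      have h4 : T⁻¹ * f x ≤ T⁻¹ * T := by
        gcongr
        have := (le_abs_self _).trans (f.norm_coe_le_norm x)
        rw [hT]; linarith
      rw [inv_mul_cancel₀ hT0.ne'] at h4
      constructor <;> linarith
    have : 0 < T⁻¹ * a := by positivity
    linarith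
  have hjr : Jet c r (fun k => -(T⁻¹ • d k)) := by
    refine ((Jet.one c).sub (jet_smul hj T⁻¹)).congr rfl fun k => ?_
    simp
  have hg := jet_smul (hjr.geom hnr) T⁻¹
  set w : C(P, ℝ) := Ring.inverse (1 - r) with hw
  have h1r : (1 - r : C(P, ℝ)) = T⁻¹ • f := by rw [hr]; abel
  have hw1 : w * (T⁻¹ • f) = 1 := by
    rw [← h1r, hw]
    exact Ring.inverse_mul_cancel _ (isUnit_one_sub_of_norm_lt_one hnr)
  refine ⟨T⁻¹ • w, fun x => ?_, hg.congr rfl fun k => ?_⟩
  · have h2 := congrArg (fun F : C(P, ℝ) => F x) hw1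
    have h3 : w x * (T⁻¹ * f x) = 1 := h2
    have h4 : (T⁻¹ • w) x = T⁻¹ * w x := rfl
    rw [h4]
    exact eq_inv_of_mul_eq_one_left (by linarith)
  · refine ContinuousMap.ext fun x => ?_
    have e1 : (T⁻¹ • (w ^ 2 * -(T⁻¹ • d k))) x = T⁻¹ * (w x ^ 2 * -(T⁻¹ * d k x)) := rfl
    have e2 : (-((T⁻¹ • w) ^ 2 * d k)) x = -((T⁻¹ * w x) ^ 2 * d k x) := rfl
    rw [e1, e2]
    ring

end Vale.Agent.P207.Q.H413
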